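import Vale.Agent.P254L.EmN

/-! The linearisation. `det_le`: eigenvalues (`IsHermitian.det_eq_prod_eigenvalues`, `trace_eq_sum_eigenvalues`), `Real.inner_le_nnorm_mul_nnorm`-free AM-GM
`Real.geom_mean_le_arith_mean` or `inner_le_geom_mean`; (`Real.geom_mean_le_arith_mean_weighted`).
`iv_O`: `mom (O N) 1 = 1 + of 1` (`int_Em`, `Em_mom`), `det_one_add_replicateCol_mul_replicateRow`, `zz = 1`.
`amgm`: `Z = zz V 1 = 1 - d`, `M = mom V 1` is positive semidefinite; `B = 1 - β • J`, `β = (1 - 1/√(N+1)) / N`, `B * B = 1 - (N+1)⁻¹ J`, `det B ^ 2 = 1/(N+1)`.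
`tr (B M B) = ∫_V Σ x² - (N+1)⁻¹ ∫_V (Σ x)² = (2N - S) - N Z` with `S = ∫_{O \ V} Σ x²` (`homog` for the indicator of `V`, `k = 0, 1`).
With `g = S - (2N+2) d`: `tr / N = 1 - (1 + 2/N) d - g / N ≤ (1 - d) ^ (1 + 2/N) - g/N` (Bernoulli `one_add_mul_self_le_rpow_one_add`), so
`det M ≤ (N+1) (tr/N) ^ N ≤ (N+1) Z ^ (N+2)`, strictly if `g > 0` (`0 ≤ tr`). -/

open MeasureTheory Set Matrix Real

noncomputable section

namespace Vale.Agent.P254L
variable {N : ℕ}

theorem det_le {A : Matrix (Fin N) (Fin N) ℝ} (hA : A.PosSemidef) (hN : 0 < N) :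
    A.det ≤ (A.trace / N) ^ N := by
  have h0 : (0 : ℝ) < N := Nat.cast_pos.2 hN
  have h1 := Real.geom_mean_le_arith_mean_weighted Finset.univ (fun _ : Fin N => (N : ℝ)⁻¹)
    hA.1.eigenvalues (fun _ _ => by positivity) (by simp [h0.ne'])
    fun i _ => hA.eigenvalues_nonneg i
  have h2 : 0 ≤ ∏ i, hA.1.eigenvalues i := Finset.prod_nonneg fun i _ => hA.eigenvalues_nonneg i
  rw [Real.finsetProd_rpow _ _ fun i _ => hA.eigenvalues_nonneg i, ← Finset.mul_sum] at h1
  rw [hA.1.det_eq_prod_eigenvalues, hA.1.trace_eq_sum_eigenvalues]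
  simp only [RCLike.ofReal_real_eq_id, id]
  rw [div_eq_inv_mul, ← Real.rpow_inv_natCast_pow h2 hN.ne']
  exact pow_le_pow_left₀ (Real.rpow_nonneg h2 _) h1 N

theorem iv_O (N : ℕ) : iv (O N) 1 = N + 1 := by
  have h1 : zz (O N) 1 = 1 := by
    have h := int_Em (N := N) fun _ => 1
    have : IsProbabilityMeasure (Em N) := by
      unfold Em
      infer_instance
    simp only [one_mul, integral_const, probReal_univ, one_smul] at h
    simpa only [zz, one_dotProduct] using h.symm
  have h2 : mom (O N) 1 =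
      1 + replicateCol Unit (1 : Fin N → ℝ) * replicateRow Unit (1 : Fin N → ℝ) := by
    ext i j
    have h := (int_Em (N := N) fun x => x i * x j).symm.trans (Em_mom i j)
    simp only [mom, of_apply, one_dotProduct, h, Matrix.add_apply, Matrix.one_apply,
      Matrix.mul_apply, replicateCol_apply, replicateRow_apply, Pi.one_apply]
    split_ifs <;> norm_num
  rw [iv, h1, h2, det_one_add_replicateCol_mul_replicateRow, one_pow, div_one, add_comm]
  simp

end Vale.Agent.P254L
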