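import Vale.Agent.P254L.Hom
import Vale.Agent.P254L.DetLe

/-! The linearisation. `det_le`: eigenvalues (`IsHermitian.det_eq_prod_eigenvalues`, `trace_eq_sum_eigenvalues`), `Real.inner_le_nnorm_mul_nnorm`-free AM-GM
`Real.geom_mean_le_arith_mean` or `inner_le_geom_mean`; (`Real.geom_mean_le_arith_mean_weighted`).
`iv_O`: `mom (O N) 1 = 1 + of 1` (`int_Em`, `Em_mom`), `det_one_add_replicateCol_mul_replicateRow`, `zz = 1`.
`amgm`: `Z = zz V 1 = 1 - d`, `M = mom V 1` is positive semidefinite; `B = 1 - β • J`, `β = (1 - 1/√(N+1)) / N`, `B * B = 1 - (N+1)⁻¹ J`, `det B ^ 2 = 1/(N+1)`.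
`tr (B M B) = ∫_V Σ x² - (N+1)⁻¹ ∫_V (Σ x)² = (2N - S) - N Z` with `S = ∫_{O \ V} Σ x²` (`homog` for the indicator of `V`, `k = 0, 1`).
With `g = S - (2N+2) d`: `tr / N = 1 - (1 + 2/N) d - g / N ≤ (1 - d) ^ (1 + 2/N) - g/N` (Bernoulli `one_add_mul_self_le_rpow_one_add`), so
`det M ≤ (N+1) (tr/N) ^ N ≤ (N+1) Z ^ (N+2)`, strictly if `g > 0` (`0 ≤ tr`). -/

open MeasureTheory Set Matrix Real

noncomputable section

namespace Vale.Agent.P254L

variable {N : ℕ}


theorem amgm_mat (hN : 0 < N) {M : Matrix (Fin N) (Fin N) ℝ} (hM : M.PosSemidef) :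
    0 ≤ ∑ i, M i i - (N + 1 : ℝ)⁻¹ * ∑ i, ∑ j, M i j ∧
      M.det ≤ (N + 1) * ((∑ i, M i i - (N + 1 : ℝ)⁻¹ * ∑ i, ∑ j, M i j) / N) ^ N := by
  have n0 : (0 : ℝ) < N := Nat.cast_pos.2 hN
  obtain ⟨s, hs⟩ : ∃ s : ℝ, s * s = (N + 1 : ℝ)⁻¹ := ⟨_, mul_self_sqrt (by positivity)⟩
  obtain ⟨β, hβ⟩ : ∃ β : ℝ, N * β = 1 - s := ⟨(1 - s) / N, by field_simp⟩
  have e0 : 2 * β - N * β * β = (N + 1 : ℝ)⁻¹ := by
    refine mul_left_cancel₀ n0.ne' ?_
    have : (N : ℝ) * (N + 1 : ℝ)⁻¹ = 1 - (N + 1 : ℝ)⁻¹ := by field_simp; ring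
    rw [this, ← hs]
    linear_combination (s - N * β + 1) * hβ
  obtain ⟨B, hB⟩ : ∃ B : Matrix (Fin N) (Fin N) ℝ,
      B = 1 + replicateCol Unit (fun _ : Fin N => -β) * replicateRow Unit fun _ : Fin N => (1 : ℝ) :=
    ⟨_, rfl⟩
  have b0 : ∀ i j, B i j = (if i = j then 1 else 0) - β := fun i j => by
    simp [hB, Matrix.mul_apply, one_apply, sub_eq_add_neg]
  have b1 : B.det = s := by
    rw [hB, det_one_add_replicateCol_mul_replicateRow]
    simp only [dotProduct, one_mul, Finset.sum_const, Finset.card_univ, Fintype.card_fin,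
      nsmul_eq_mul]
    linarith
  have b2 : ∀ i j, (B * Bᴴ) i j = (if i = j then 1 else 0) - (N + 1 : ℝ)⁻¹ := fun i j => by
    rw [← e0]
    simp only [Matrix.mul_apply, conjTranspose_apply, star_trivial, b0, sub_mul, mul_sub,
      Finset.sum_sub_distrib, ite_mul, mul_ite, one_mul, mul_one, zero_mul, mul_zero,
      Finset.sum_ite_eq, Finset.mem_univ, if_true, Finset.sum_const, Finset.card_univ,
      Fintype.card_fin, nsmul_eq_mul]
    by_cases h : i = j
    · simp only [h, if_true]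
      ring
    · simp only [h, if_false]
      ring
  have hP := hM.conjTranspose_mul_mul_same B
  have b3 : (Bᴴ * M * B).trace = ∑ i, M i i - (N + 1 : ℝ)⁻¹ * ∑ i, ∑ j, M i j := by
    rw [trace_mul_cycle, trace_mul_comm]
    simp only [trace, diag_apply]
    simp only [Matrix.mul_apply (M := M), b2, mul_sub, Finset.sum_sub_distrib, mul_ite, mul_one,
      mul_zero, Finset.sum_ite_eq', Finset.mem_univ, if_true, ← Finset.sum_mul]
    ring
  have h := det_le hP hN
  rw [b3, det_mul, det_mul, det_conjTranspose, b1, star_trivial, mul_right_comm, hs,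
    inv_mul_le_iff₀ (by positivity)] at h
  exact ⟨b3 ▸ hP.trace_nonneg, h⟩

theorem amgm_i1 (i : Fin N) : Integrable (fun x : R N => x i) (Em N) :=
  Em_int (continuous_apply i).aestronglyMeasurable (Gr.of_lip (LipschitzWith.eval i))

theorem amgm_i2 (i j : Fin N) : Integrable (fun x : R N => x i * x j) (Em N) :=
  Em_int ((continuous_apply i).mul (continuous_apply j)).aestronglyMeasurable
    ((Gr.of_lip (LipschitzWith.eval i)).mul (Gr.of_lip (LipschitzWith.eval j)))

theorem amgm_hom {V : Set (R N)} (hV : Cn V) {f : R N → ℝ} {k : ℕ} (h0 : ∀ x ∈ O N, 0 ≤ f x)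
    (h1 : Integrable f (Em N)) (h2 : Integrable (fun x => f x * ∑ j, x j) (Em N))
    (hh : ∀ t : ℝ, ∀ x, f (t • x) = t ^ k * f x) :
    ∫ x in V, f x * ∑ j, x j ∂Em N = (N + k) * ∫ x in V, f x ∂Em N := by
  have m := hV.cl.measurableSet
  have e : (fun x => V.indicator f x * ∑ j, x j) = V.indicator fun x => f x * ∑ j, x j :=
    funext fun x => (indicator_mul_left V f fun x => ∑ j, x j).symm
  have h := homog (f := V.indicator f) (k := k) (fun x hx => indicator_apply_nonneg fun _ => h0 x hx)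
    (h1.indicator m) (e ▸ h2.indicator m) fun t ht x _ => by
      by_cases hx : x ∈ V
      · rw [indicator_of_mem hx, indicator_of_mem (hV.sm t ht.le x hx), hh]
      · rw [indicator_of_notMem hx, indicator_of_notMem, mul_zero]
        exact fun h => hx (inv_smul_smul₀ ht.ne' x ▸ hV.sm t⁻¹ (inv_pos.2 ht).le _ h)
  rwa [e, integral_indicator m, integral_indicator m] at h

theorem amgm (hN : 0 < N) {V : Set (R N)} (hV : Cn V) (hO : V ⊆ O N) (hZ : 0 < zz V 1) :
    (0 ≤ ∫ x in O N \ V, ff x ∂Em N → iv V 1 ≤ N + 1) ∧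
    (0 < ∫ x in O N \ V, ff x ∂Em N → iv V 1 < N + 1) := by

  have n0 : (0 : ℝ) < N := Nat.cast_pos.2 hN
  have m := hV.cl.measurableSet
  have eM : ∀ i j, mom V 1 i j = ∫ x in V, x i * x j ∂Em N := fun i j => by
    simp only [setInt_Em m hO, mom, of_apply, one_dotProduct]
  have eZ : zz V 1 = ∫ _ in V, (1 : ℝ) ∂Em N := by
    simp only [setInt_Em m hO, zz, one_dotProduct, one_mul]
  have i2 : ∀ i j, Integrable (fun x : R N => x i * x j) ((Em N).restrict V) :=
    fun i j => (amgm_i2 i j).restrict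
  have hM : (mom V 1).PosSemidef := by
    refine .of_dotProduct_mulVec_nonneg (Matrix.ext fun i j => ?_) fun v => ?_
    · simp only [conjTranspose_apply, star_trivial, eM, mul_comm]
    · have e : star v ⬝ᵥ mom V 1 *ᵥ v = ∫ x in V, ∑ i, ∑ j, v i * (x i * x j * v j) ∂Em N := by
        rw [integral_finsetSum _ fun i _ => integrable_finsetSum _ fun j _ =>
          ((i2 i j).mul_const _).const_mul _]
        simp only [dotProduct, mulVec, star_trivial, eM, Finset.mul_sum]
        refine Finset.sum_congr rfl fun i _ => ?_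
        rw [integral_finsetSum _ fun j _ => ((i2 i j).mul_const _).const_mul _]
        simp only [integral_const_mul, integral_mul_const]
      rw [e]
      refine integral_nonneg fun x => le_of_le_of_eq (mul_self_nonneg (∑ i, v i * x i)) ?_
      rw [Finset.sum_mul_sum]
      exact Finset.sum_congr rfl fun i _ => Finset.sum_congr rfl fun j _ => by ring
  have s1 : Integrable (fun x : R N => ∑ j, x j) (Em N) :=
    integrable_finsetSum _ fun i _ => amgm_i1 i
  have e2 : (fun x : R N => (∑ j, x j) * ∑ j, x j) = fun x => ∑ i, ∑ j, x i * x j :=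
    funext fun x => Finset.sum_mul_sum _ _ _ _
  have a0 := amgm_hom hV (f := fun _ => 1) (k := 0) (fun _ _ => zero_le_one) (integrable_const _)
    (by simpa using s1) (by simp)
  have a1 := amgm_hom hV (f := fun x => ∑ j, x j) (k := 1)
    (fun x hx => Finset.sum_nonneg fun j _ => hx j) s1
    (e2 ▸ integrable_finsetSum _ fun i _ => integrable_finsetSum _ fun j _ => amgm_i2 i j)
    fun t x => by simp [Finset.mul_sum]
  simp only [one_mul, Nat.cast_zero, add_zero, ← eZ] at a0
  rw [a0, e2, integral_finsetSum _ fun i _ => integrable_finsetSum _ fun j _ => i2 i j,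
    Finset.sum_congr rfl fun i _ => (integral_finsetSum _ fun j _ => i2 i j).trans
      (Finset.sum_congr rfl fun j _ => (eM i j).symm)] at a1
  have ef : ∀ μ : Measure (R N), IsFiniteMeasure μ →
      (∀ i, Integrable (fun x : R N => x i * x i) μ) → Integrable ff μ ∧
      ∫ x, ff x ∂μ = ∑ i, ∫ x, x i * x i ∂μ - (2 * N + 2) * ∫ _, (1 : ℝ) ∂μ := fun μ _ h => by
    have k := integrable_finsetSum Finset.univ fun i _ => h i
    have e : ff = fun x : R N => ∑ i, x i * x i - (2 * N + 2) := by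
      funext x
      simp only [ff, sq]
    rw [e]
    refine ⟨k.sub (integrable_const _), ?_⟩
    rw [integral_sub k (integrable_const _), integral_finsetSum _ fun i _ => h i]
    simp [mul_comm]
  have f1 := ef (Em N) inferInstance fun i => amgm_i2 i i
  have f2 := (ef _ inferInstance fun i => i2 i i).2
  have hg : ∫ x in O N \ V, ff x ∂Em N = -2 - (∑ i, mom V 1 i i - (2 * N + 2) * zz V 1) := by
    rw [setIntegral_sdiff m f1.1.integrableOn hO, f2,
      Measure.restrict_eq_self_of_ae_mem (s := O N) (ae_Em.mono fun x h k => (h k).le), f1.2]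
    simp only [Em_mom, ← eM, ← eZ]
    simp
    ring
  obtain ⟨t0, hd⟩ := amgm_mat hN hM
  rw [a1] at t0 hd
  obtain ⟨T, hT⟩ : ∃ T, T = (∑ i, mom V 1 i i -
    (N + 1 : ℝ)⁻¹ * ((N + (1 : ℕ)) * (N * zz V 1))) / N := ⟨_, rfl⟩
  have T0 : 0 ≤ T := hT ▸ div_nonneg t0 n0.le
  have be := one_add_mul_self_le_rpow_one_add (s := zz V 1 - 1) (by linarith) (p := 1 + 2 / N)
    (le_add_of_nonneg_right (by positivity))
  have eT : T = 1 + (1 + 2 / N) * (zz V 1 - 1) - (∫ x in O N \ V, ff x ∂Em N) / N := by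
    rw [hT, hg]
    push_cast
    field_simp
    ring
  have ep : (zz V 1 ^ (1 + 2 / N : ℝ)) ^ N = zz V 1 ^ (N + 2) := by
    rw [← rpow_natCast, ← rpow_mul hZ.le, ← rpow_natCast]
    congr 1
    push_cast
    field_simp
  rw [add_sub_cancel] at be
  rw [← hT] at hd
  unfold iv
  rw [div_le_iff₀ (by positivity), div_lt_iff₀ (by positivity), ← ep]
  refine ⟨fun h => hd.trans ?_, fun h => hd.trans_lt ?_⟩
  · have := div_nonneg h n0.le
    gcongr
    linarith
  · have := div_pos h n0
    gcongr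
    linarith

end Vale.Agent.P254L
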