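import Vale.Agent.P254L.Em1

/-! Integrals over the cone over `K`. `cn_cone`: closedness: `X = s • hc x` forces `s = X 0`; image of the compact `Icc 0 R × K` inside a ball, or sequences.
`cone_int`: `volume_preserving_piFinSuccAbove _ 0`, Fubini (`integral_prod`; the integrand is bounded by `C s ^ k exp (-s)` on a set whose slices have volume
`s ^ n |K|`, or use `lintegral` for the positive and negative parts); the slice at `s > 0` is `s • K` (`Measure.setIntegral_comp_smul_of_pos`,
`PiLp.volume_preserving_toLp`), slices at `s ≤ 0` do not matter (`s < 0` empty, `s = 0` null), `∫ s in Ioi 0, s ^ (n + k) exp (-s) = (n + k)!` (`int_em`, `em_pow`). -/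

open MeasureTheory Set Matrix Real

noncomputable section

namespace Vale.Agent.P254L

variable {n : ℕ} {K : Set (EuclideanSpace ℝ (Fin n))}

open scoped Pointwise

theorem conea_hc : Continuous (hc : EuclideanSpace ℝ (Fin n) → R (n + 1)) := by
  refine continuous_pi fun i => ?_
  refine Fin.cases ?_ (fun j => ?_) i
  · exact continuous_const
  · exact PiLp.continuous_apply 2 _ j

theorem conea_zero (s : ℝ) (x : EuclideanSpace ℝ (Fin n)) : (s • hc x) 0 = s := mul_one s

theorem conea_closed (hK : IsCompact K) : IsClosed (cone K) := by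
  have := isCompact_iff_compactSpace.1 hK
  have e : cone K = Prod.fst '' {z : R (n + 1) × K | 0 ≤ z.1 0 ∧ z.1 = z.1 0 • hc z.2} := by
    ext X
    constructor
    · rintro ⟨s, hs, x, hx, rfl⟩
      exact ⟨(_, ⟨x, hx⟩), ⟨hs.trans_eq (conea_zero s x).symm,
        congrArg (· • hc x) (conea_zero s x).symm⟩, rfl⟩
    · rintro ⟨z, hz, rfl⟩
      exact ⟨_, hz.1, z.2, z.2.2, hz.2⟩
  have h0 : Continuous fun z : R (n + 1) × K => z.1 0 := (continuous_apply 0).comp continuous_fst
  rw [e]
  exact isClosedMap_fst_of_compactSpace _ ((isClosed_le continuous_const h0).inter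
    (isClosed_eq continuous_fst (h0.smul (conea_hc.comp
      (continuous_subtype_val.comp continuous_snd)))))

theorem conea_cons (s : ℝ) (y : R n) :
    (Fin.cons s (s • y) : R (n + 1)) = s • hc (WithLp.toLp 2 y) := by
  funext i
  refine Fin.cases ?_ (fun j => ?_) i
  · exact (mul_one s).symm
  · rfl

theorem conea_mem {s : ℝ} (y : R n) :
    (Fin.cons s y : R (n + 1)) ∈ cone K ↔
      0 ≤ s ∧ y ∈ s • (WithLp.toLp 2 ⁻¹' K : Set (R n)) := by
  constructor
  · rintro ⟨t, ht, x, hx, e⟩
    obtain rfl : s = t := (congrFun e 0).trans (mul_one t)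
    exact ⟨ht, x.ofLp, hx, funext fun j => (congrFun e j.succ).symm⟩
  · rintro ⟨hs, x, hx, rfl⟩
    exact ⟨s, hs, _, hx, conea_cons s x⟩

/-- The integrand in product coordinates. -/
def conea_F (K : Set (EuclideanSpace ℝ (Fin n))) (p : R (n + 1) → ℝ) (z : ℝ × R n) : ℝ :=
  (cone K).indicator (fun X => p X * exp (-X 0)) (Fin.cons z.1 z.2)

theorem conea_cpt (hK : IsCompact K) : IsCompact (WithLp.toLp 2 ⁻¹' K : Set (R n)) :=
  (PiLp.homeomorph 2 fun _ : Fin n => ℝ).symm.isCompact_preimage.2 hK

theorem conea_pos (p : R (n + 1) → ℝ) {s : ℝ} (hs : 0 < s) : (fun y => conea_F K p (s, y)) =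
    (s • (WithLp.toLp 2 ⁻¹' K : Set (R n))).indicator fun y => p (Fin.cons s y) * exp (-s) := by
  funext y
  unfold conea_F
  by_cases h : y ∈ s • (WithLp.toLp 2 ⁻¹' K : Set (R n))
  · rw [indicator_of_mem h, indicator_of_mem ((conea_mem y).2 ⟨hs.le, h⟩)]
    rfl
  · rw [indicator_of_notMem h, indicator_of_notMem fun k => h ((conea_mem y).1 k).2]

theorem conea_neg (p : R (n + 1) → ℝ) {s : ℝ} (hs : s < 0) :
    (fun y => conea_F K p (s, y)) = fun _ => 0 :=
  funext fun y => indicator_of_notMem (fun k => hs.not_ge ((conea_mem y).1 k).1) _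

theorem conea_slice (hK : IsCompact K) {p : R (n + 1) → ℝ} {k : ℕ}
    (hh : ∀ t : ℝ, 0 < t → ∀ x, p (t • x) = t ^ k * p x) :
    (fun s => ∫ y, conea_F K p (s, y)) =ᵐ[volume] (Ioi 0).indicator
      fun s : ℝ => s ^ (n + k) * exp (-s) * ∫ x in K, p (hc x) := by
  filter_upwards [compl_mem_ae_iff.2 (measure_singleton (0 : ℝ))] with s hs
  rcases lt_or_gt_of_ne hs with h | h
  · rw [conea_neg p h, integral_zero, indicator_of_notMem (notMem_Ioi.2 h.le)]
  · have h1 := Measure.setIntegral_comp_smul_of_pos volume
      (fun y : R n => p (Fin.cons s y) * exp (-s)) (WithLp.toLp 2 ⁻¹' K) h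
    have h2 := (PiLp.volume_preserving_toLp (Fin n)).setIntegral_preimage_emb
      (MeasurableEquiv.toLp 2 _).measurableEmbedding (fun x => p (hc x)) K
    simp only [conea_cons, hh s h, Module.finrank_fin_fun, smul_eq_mul] at h1
    rw [integral_mul_const, integral_const_mul, h2, eq_inv_mul_iff_mul_eq₀ (pow_pos h n).ne'] at h1
    rw [conea_pos p h, integral_indicator ((conea_cpt hK).smul s).measurableSet,
      indicator_of_mem (mem_Ioi.2 h), ← h1]
    ring

theorem conea_gam (m : ℕ) : IntegrableOn (fun s : ℝ => s ^ m * exp (-s)) (Ioi 0) := by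
  refine (Real.GammaIntegral_convergent (s := m + 1) (by positivity)).congr_fun
    (fun x _ => ?_) measurableSet_Ioi
  simp only [add_sub_cancel_right, rpow_natCast, mul_comm]

theorem cn_cone (hK : IsCompact K) (hc : Convex ℝ K) : Cn (cone K) := by
  refine ⟨conea_closed hK, ?_, ?_⟩
  · rintro _ ⟨s, hs, x, hx, rfl⟩ _ ⟨t, ht, y, hy, rfl⟩ a b ha hb _
    have h1 := mul_nonneg ha hs
    have h2 := mul_nonneg hb ht
    rcases (add_nonneg h1 h2).eq_or_lt with h | h
    · refine ⟨0, le_rfl, x, hx, ?_⟩
      rw [smul_smul, smul_smul, show a * s = 0 by linarith, show b * t = 0 by linarith, zero_smul,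
        zero_smul, add_zero]
    · refine ⟨_, h.le, _, hc hx hy (div_nonneg h1 h.le) (div_nonneg h2 h.le)
        (by rw [← add_div, div_self h.ne']), ?_⟩
      funext i
      refine Fin.cases ?_ (fun j => ?_) i
      · simp [P254L.hc]
      · simp only [P254L.hc, Pi.add_apply, Pi.smul_apply, Fin.cons_succ, smul_eq_mul,
          PiLp.add_apply, PiLp.smul_apply]
        field_simp
  · rintro t ht _ ⟨s, hs, x, hx, rfl⟩
    exact ⟨t * s, mul_nonneg ht hs, x, hx, smul_smul t s _⟩

theorem cone_int (hK : IsCompact K) {p : R (n + 1) → ℝ} (hp : Continuous p) {k : ℕ}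
    (hh : ∀ t : ℝ, 0 < t → ∀ x, p (t • x) = t ^ k * p x) :
    ∫ X in cone K, p X * exp (-X 0) = (n + k).factorial * ∫ x in K, p (hc x) := by
  have hm := (volume_preserving_piFinSuccAbove (fun _ : Fin (n + 1) => ℝ) 0).symm
  have e : ∀ z, (cone K).indicator (fun X => p X * exp (-X 0))
      ((MeasurableEquiv.piFinSuccAbove (fun _ : Fin (n + 1) => ℝ) 0).symm z) = conea_F K p z := by
    intro z
    simp only [conea_F, MeasurableEquiv.piFinSuccAbove_symm_apply, Fin.insertNthEquiv,
      Equiv.coe_fn_mk, Fin.insertNth_zero']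
  have hcl := (conea_closed hK).measurableSet
  have hcont : Continuous fun X : R (n + 1) => p X * exp (-X 0) := by fun_prop
  have hF : AEStronglyMeasurable (conea_F K p) (volume.prod volume) := by
    rw [← funext e]
    exact ((hcont.measurable.indicator hcl).comp
      (MeasurableEquiv.measurable _)).aestronglyMeasurable
  have hI : Integrable (conea_F K p) (volume.prod volume) := by
    refine (integrable_prod_iff hF).2 ⟨?_, ?_⟩
    · filter_upwards [compl_mem_ae_iff.2 (measure_singleton (0 : ℝ))] with s hs
      rcases lt_or_gt_of_ne hs with h | h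
      · rw [conea_neg p h]
        exact integrable_zero _ _ _
      · rw [conea_pos p h, integrable_indicator_iff ((conea_cpt hK).smul s).measurableSet]
        refine ContinuousOn.integrableOn_compact ((conea_cpt hK).smul s)
          (Continuous.continuousOn (Continuous.mul (hp.comp ?_) continuous_const))
        exact continuous_pi fun i => Fin.cases continuous_const (fun j => continuous_apply j) i
    · have e2 : ∀ z, ‖conea_F K p z‖ = conea_F K (fun X => |p X|) z := by
        intro z
        unfold conea_F
        rw [norm_indicator_eq_indicator_norm]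
        simp only [norm_mul, Real.norm_eq_abs, abs_exp]
      simp only [e2]
      refine Integrable.congr ?_ (conea_slice hK (k := k) fun t ht x => ?_).symm
      · exact (integrable_indicator_iff measurableSet_Ioi).2 ((conea_gam _).mul_const _)
      · rw [hh t ht, abs_mul, abs_of_pos (pow_pos ht k)]
  rw [← integral_indicator hcl, ← hm.integral_comp', funext e, Measure.volume_eq_prod,
    integral_prod _ hI, integral_congr_ae (conea_slice hK hh), integral_indicator measurableSet_Ioi,
    integral_mul_const, ← int_em fun s => s ^ (n + k), em_pow]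

end Vale.Agent.P254L
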