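import Vale.Agent.P254L.ConeA

/-! The invariant of the cone is the isotropic constant. `zz = n! |K|`, `mom = (n+2)! • M`, `M i j = ∫ x in K, hc x i * hc x j` (`cone_int`, `single_one_dotProduct`).
`det M = |K| ^ (n+1) * det Σ`: with `b` the centroid, `U = ` unipotent matrix (`U 0 0 = 1`, `U 0 j.succ = 0`, `U i.succ 0 = -b i`, `U i.succ j.succ = δ`),
`U * M * Uᵀ = |K| • [[1, 0], [0, Σ]]`; `det_succ_row_zero` / `det_succ_column_zero` with `Fin.sum_univ_succ`. -/

open MeasureTheory Set Matrix Real

noncomputable section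

namespace Vale.Agent.P254L

variable {n : ℕ} {K : Set (EuclideanSpace ℝ (Fin n))}

/-- The matrix of second moments. -/
def coneb_g {m : ℕ} (K : Set (EuclideanSpace ℝ (Fin n))) (g : EuclideanSpace ℝ (Fin n) → R m) :
    Matrix (Fin m) (Fin m) ℝ := Matrix.of fun i j => ∫ x in K, g x i * g x j

theorem coneb_bil (hK : IsCompact K) {m : ℕ} {g : EuclideanSpace ℝ (Fin n) → R m}
    (hg : Continuous g) (u v : R m) :
    u ⬝ᵥ coneb_g K g *ᵥ v = ∫ x in K, (u ⬝ᵥ g x) * (v ⬝ᵥ g x) := by
  have hi : ∀ i j, IntegrableOn (fun x => u i * (g x i * g x j * v j)) K := fun i j =>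
    (Continuous.continuousOn (by fun_prop)).integrableOn_compact hK
  have e : ∀ x, (u ⬝ᵥ g x) * (v ⬝ᵥ g x) = ∑ i, ∑ j, u i * (g x i * g x j * v j) := fun x => by
    simp only [dotProduct, Finset.sum_mul_sum]
    exact Finset.sum_congr rfl fun i _ => Finset.sum_congr rfl fun j _ => by ring
  simp only [e]
  rw [integral_finsetSum _ fun i _ => integrable_finsetSum _ fun j _ => hi i j]
  refine Finset.sum_congr rfl fun i _ => ?_
  rw [integral_finsetSum _ fun j _ => hi i j, mulVec, dotProduct, Finset.mul_sum]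
  refine Finset.sum_congr rfl fun j _ => ?_
  rw [integral_const_mul, integral_mul_const]
  rfl

theorem coneb_conj (hK : IsCompact K) {m : ℕ} {g : EuclideanSpace ℝ (Fin n) → R m}
    (hg : Continuous g) (U : Matrix (Fin m) (Fin m) ℝ) :
    U * (coneb_g K g * Uᵀ) = coneb_g K fun x => U *ᵥ g x := by
  ext i j
  exact coneb_bil hK hg (U i) (U j)

theorem coneb_det {m : ℕ} {B : Matrix (Fin (m + 1)) (Fin (m + 1)) ℝ} (h : ∀ j, B 0 (Fin.succ j) = 0) :
    B.det = B 0 0 * (B.submatrix Fin.succ Fin.succ).det := by
  rw [det_succ_row_zero, Fin.sum_univ_succ]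
  simp [h]

theorem coneb_hc : Continuous (hc : EuclideanSpace ℝ (Fin n) → R (n + 1)) :=
  continuous_pi fun i => Fin.cases continuous_const (fun j => by
    simp only [hc, Fin.cons_succ]
    fun_prop) i

theorem coneb_M (hK : IsCompact K) (h0 : 0 < volume.real K) :
    (coneb_g K hc).det = volume.real K ^ (n + 1) * (Vale.Agent.P254.covMatrix K).det := by
  let b := Vale.Agent.P254.centroidCoord K
  let U : Matrix (Fin (n + 1)) (Fin (n + 1)) ℝ := Matrix.of
    (Fin.cons (Pi.single 0 1) fun i => Fin.cons (-b i) (Pi.single i 1))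
  have hU : U.det = 1 := by
    have e : U.submatrix Fin.succ Fin.succ = 1 := by
      ext i j
      simp [U, one_apply, Pi.single_apply, eq_comm]
    rw [coneb_det fun j => by simp [U], e]
    simp [U]
  have h1 : ∀ x : EuclideanSpace ℝ (Fin n), (U *ᵥ hc x) 0 = 1 := fun x => by
    simp [U, mulVec, hc]
  have h2 : ∀ (x : EuclideanSpace ℝ (Fin n)) i, (U *ᵥ hc x) (Fin.succ i) = x i - b i :=
    fun x i => by
      simp [U, mulVec, hc, dotProduct, Fin.sum_univ_succ, Pi.single_apply]
      ring
  have h3 := congrArg det (coneb_conj hK coneb_hc U)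
  rw [det_mul, det_mul, det_transpose, hU, one_mul, mul_one] at h3
  have e : (coneb_g K fun x => U *ᵥ hc x).submatrix Fin.succ Fin.succ =
      volume.real K • Vale.Agent.P254.covMatrix K := by
    ext i j
    simp only [coneb_g, submatrix_apply, of_apply, h2, Matrix.smul_apply, smul_eq_mul,
      Vale.Agent.P254.covMatrix]
    rw [mul_inv_cancel_left₀ h0.ne']
  rw [h3, coneb_det fun j => ?_, e, det_smul, Fintype.card_fin, pow_succ']
  · simp only [coneb_g, of_apply, h1, mul_one, setIntegral_const, smul_eq_mul, mul_assoc]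
  · simp only [coneb_g, of_apply, h1, h2, one_mul]
    rw [integral_sub ((Continuous.continuousOn (by fun_prop)).integrableOn_compact hK)
      (continuousOn_const.integrableOn_compact hK), setIntegral_const, smul_eq_mul]
    simp only [b, Vale.Agent.P254.centroidCoord]
    rw [mul_inv_cancel_left₀ h0.ne', sub_self]

theorem zz_cone (hK : IsCompact K) :
    zz (cone K) (Pi.single 0 1) = n.factorial * volume.real K := by
  have h := cone_int hK (p := fun _ => 1) continuous_const (k := 0) fun _ _ _ => by simp
  simpa [zz] using h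

theorem iv_cone (hK : IsCompact K) (h0 : 0 < volume.real K) :
    iv (cone K) (Pi.single 0 1) = ((n + 2).factorial : ℝ) ^ (n + 1) / (n.factorial : ℝ) ^ (n + 3) *
      ((Vale.Agent.P254.covMatrix K).det / volume.real K ^ 2) := by
  have e : mom (cone K) (Pi.single 0 1) = ((n + 2).factorial : ℝ) • coneb_g K hc := by
    ext i j
    have h := cone_int hK (p := fun x => x i * x j) (by fun_prop) (k := 2) fun t _ x => by
      simp only [Pi.smul_apply, smul_eq_mul]
      ring
    simp only [mom, of_apply, single_one_dotProduct, Matrix.smul_apply, smul_eq_mul, coneb_g]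
    exact h
  have h1 : (0 : ℝ) < n.factorial := by exact_mod_cast n.factorial_pos
  rw [iv, e, det_smul, Fintype.card_fin, coneb_M hK h0, zz_cone hK]
  field_simp
  ring

theorem det_cov_nonneg (hK : IsCompact K) : 0 ≤ (Vale.Agent.P254.covMatrix K).det := by
  have e : Vale.Agent.P254.covMatrix K = (volume.real K)⁻¹ •
      coneb_g K fun x i => x i - Vale.Agent.P254.centroidCoord K i := rfl
  rw [e, det_smul]
  refine mul_nonneg (by positivity) (PosSemidef.det_nonneg
    (posSemidef_iff_dotProduct_mulVec.2 ⟨?_, fun v => ?_⟩))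
  · ext i j
    simp only [coneb_g, conjTranspose_apply, of_apply, star_trivial, mul_comm]
  · rw [star_trivial, coneb_bil hK (by fun_prop)]
    exact integral_nonneg fun x => mul_self_nonneg _

end Vale.Agent.P254L
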