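import Vale.Agent.P254L.Defs

/-! The height function `H x = sInf {t | x + t • 1 ∈ V}`. `V` is closed under addition (convex cone). `1 ∈ Oe ⊆ V`, so the set of `t` is an
upper set; it is closed, bounded below by `-x k` (`V ⊆ O`; `N = n + 1 > 0`), nonempty: for `‖w‖ ≤ r`, `w + 3 r • 1 ∈ Oe η`
(`η N ≤ 1/2`: `η (Σ w + 3 r N) ≤ 4 r η N ≤ 2 r`). So the infimum is attained (`IsClosed.csInf_mem`) and `H x ≤ t ↔ x + t • 1 ∈ V`; derive everything from this.
Lipschitz constant `3` (`LipschitzWith.of_le_add_mul`). `up`: `z + 2 η Σ z • 1 ∈ Oe η` for `z ∈ O`. -/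

open MeasureTheory Set Matrix Real

noncomputable section

namespace Vale.Agent.P254L

theorem gauge_add {N : ℕ} {V : Set (R N)} (hV : Cn V) {x y : R N} (hx : x ∈ V) (hy : y ∈ V) :
    x + y ∈ V := by
  have h := hV.cv hx hy (a := 1 / 2) (b := 1 / 2) (by norm_num) (by norm_num) (by norm_num)
  have h2 := hV.sm 2 (by norm_num) _ h
  have e : (2 : ℝ) • ((1 / 2 : ℝ) • x + (1 / 2 : ℝ) • y) = x + y := by
    ext k
    simp only [Pi.smul_apply, Pi.add_apply, smul_eq_mul]
    ring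
  rwa [e] at h2

theorem gauge_key {n : ℕ} {η : ℝ} (h0 : 0 < η) (h1 : η * (n + 1) ≤ 1 / 2) (w : R (n + 1)) {r : ℝ}
    (hr : ‖w‖ ≤ r) : w + (3 * r) • (1 : R (n + 1)) ∈ Oe (n + 1) η := by
  have hr0 : 0 ≤ r := (norm_nonneg _).trans hr
  have hw : ∀ j, |w j| ≤ r := fun j => (norm_le_pi_norm w j).trans hr
  intro k
  have hs : ∑ j, (w + (3 * r) • (1 : R (n + 1))) j ≤ (n + 1) * (4 * r) := by
    have : ∑ j, (w + (3 * r) • (1 : R (n + 1))) j ≤ ∑ _j : Fin (n + 1), 4 * r := by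
      refine Finset.sum_le_sum fun j _ => ?_
      have := (abs_le.1 (hw j)).2
      simp only [Pi.add_apply, Pi.smul_apply, Pi.one_apply, smul_eq_mul]
      linarith
    simpa using this
  have h2 := mul_le_mul_of_nonneg_left hs h0.le
  have h3 : η * ((n + 1) * (4 * r)) ≤ 2 * r := by nlinarith
  have h4 := (abs_le.1 (hw k)).1
  have e : (w + (3 * r) • (1 : R (n + 1))) k = w k + 3 * r := by simp
  rw [e]
  linarith

theorem gauge_char {n : ℕ} {V : Set (R (n + 1))} {η : ℝ} (hV : Cn V) (h0 : 0 < η)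
    (h1 : η * (n + 1) ≤ 1 / 2) (hi : Oe (n + 1) η ⊆ V) (hO : V ⊆ O (n + 1)) :
    ∃ H : R (n + 1) → ℝ, ∀ x t, H x ≤ t ↔ x + t • (1 : R (n + 1)) ∈ V := by
  have hone : (1 : R (n + 1)) ∈ V := by
    refine hi fun k => ?_
    simp only [Pi.one_apply, Finset.sum_const, Finset.card_univ, Fintype.card_fin, nsmul_eq_mul,
      mul_one]
    push_cast
    linarith
  refine ⟨fun x => sInf {t : ℝ | x + t • (1 : R (n + 1)) ∈ V}, fun x t => ?_⟩
  have hb : BddBelow {t : ℝ | x + t • (1 : R (n + 1)) ∈ V} := by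
    refine ⟨-x 0, fun s hs => ?_⟩
    have := hO hs 0
    simp only [Pi.add_apply, Pi.smul_apply, Pi.one_apply, smul_eq_mul, mul_one] at this
    linarith
  have hn : ({t : ℝ | x + t • (1 : R (n + 1)) ∈ V}).Nonempty :=
    ⟨3 * ‖x‖, hi (gauge_key h0 h1 x le_rfl)⟩
  have hc : IsClosed {t : ℝ | x + t • (1 : R (n + 1)) ∈ V} :=
    hV.cl.preimage (f := fun t : ℝ => x + t • (1 : R (n + 1))) (by fun_prop)
  refine ⟨fun h => ?_, fun h => csInf_le hb h⟩
  have hm := hc.csInf_mem hn hb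
  have h2 := gauge_add hV hm (hV.sm _ (sub_nonneg.2 h) _ hone)
  have e : x + sInf {t : ℝ | x + t • (1 : R (n + 1)) ∈ V} • (1 : R (n + 1)) +
      (t - sInf {t : ℝ | x + t • (1 : R (n + 1)) ∈ V}) • (1 : R (n + 1)) =
      x + t • (1 : R (n + 1)) := by
    rw [add_assoc, ← add_smul]
    congr 2
    ring
  rwa [e] at h2

theorem exists_ht {n : ℕ} {V : Set (R (n + 1))} {η : ℝ} (hV : Cn V) (h0 : 0 < η)
    (h1 : η * (n + 1) ≤ 1 / 2) (hi : Oe (n + 1) η ⊆ V) (hO : V ⊆ O (n + 1)) :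
    ∃ H, Ht V (2 * η) H := by
  obtain ⟨H, hH⟩ := gauge_char hV h0 h1 hi hO
  have hm : ∀ x, x + H x • (1 : R (n + 1)) ∈ V := fun x => (hH x _).1 le_rfl
  have hle : ∀ t : ℝ, 0 < t → ∀ x, H (t • x) ≤ t * H x := by
    intro t ht x
    rw [hH]
    have h := hV.sm t ht.le _ (hm x)
    rwa [smul_add, smul_smul] at h
  refine ⟨H, ⟨convex_univ, ?_⟩, ⟨3, ?_⟩, ?_, ?_, ?_, ?_, ?_⟩
  · intro x _ y _ a b ha hb hab
    rw [hH]
    have h := hV.cv (hm x) (hm y) ha hb hab
    have e : a • (x + H x • (1 : R (n + 1))) + b • (y + H y • (1 : R (n + 1))) =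
        a • x + b • y + (a • H x + b • H y) • (1 : R (n + 1)) := by
      ext k
      simp only [Pi.smul_apply, Pi.add_apply, smul_eq_mul, Pi.one_apply]
      ring
    rwa [e] at h
  · refine LipschitzWith.of_le_add_mul 3 fun x y => ?_
    rw [hH]
    have h := gauge_add hV (hm y) (hi (gauge_key h0 h1 (x - y) le_rfl))
    have e : y + H y • (1 : R (n + 1)) + (x - y + (3 * ‖x - y‖) • (1 : R (n + 1))) =
        x + (H y + ((3 : NNReal) : ℝ) * dist x y) • (1 : R (n + 1)) := by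
      rw [dist_eq_norm]
      ext k
      simp only [Pi.smul_apply, Pi.add_apply, Pi.sub_apply, smul_eq_mul, Pi.one_apply,
        NNReal.coe_ofNat]
      ring
    rwa [e] at h
  · intro t ht x
    refine le_antisymm (hle t ht x) ?_
    have h := hle t⁻¹ (inv_pos.2 ht) (t • x)
    rw [smul_smul, inv_mul_cancel₀ ht.ne', one_smul] at h
    have h2 := mul_le_mul_of_nonneg_left h ht.le
    rwa [← mul_assoc, mul_inv_cancel₀ ht.ne', one_mul] at h2
  · intro x t
    refine eq_of_forall_ge_iff fun s => ?_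
    rw [hH, sub_le_iff_le_add, hH, add_assoc, ← add_smul, add_comm t s]
  · intro x
    rw [hH, zero_smul, add_zero]
  · intro x k
    have := hO (hm x) k
    simp only [Pi.add_apply, Pi.smul_apply, Pi.one_apply, smul_eq_mul, mul_one] at this
    linarith
  · intro x hx
    rw [hH]
    refine hi fun k => ?_
    have hS : 0 ≤ ∑ j, x j := Finset.sum_nonneg fun j _ => hx j
    have hk := hx k
    have e : ∑ j, (x + (2 * η * ∑ j, x j) • (1 : R (n + 1))) j =
        ∑ j, x j + (n + 1) * (2 * η * ∑ j, x j) := by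
      simp only [Pi.add_apply, Pi.smul_apply, Pi.one_apply, smul_eq_mul, mul_one,
        Finset.sum_add_distrib, Finset.sum_const, Finset.card_univ, Fintype.card_fin, nsmul_eq_mul]
      push_cast
      ring
    have e2 : (x + (2 * η * ∑ j, x j) • (1 : R (n + 1))) k = x k + 2 * η * ∑ j, x j := by simp
    rw [e, e2]
    have h3 : 0 ≤ η * ∑ j, x j := mul_nonneg h0.le hS
    nlinarith [mul_le_mul_of_nonneg_left h1 h3]

end Vale.Agent.P254L
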