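import Vale.Agent.P254L.EmN

/-! Fibres in the direction `(1, …, 1)`.
`sector`: the shear `x ↦ (fun k => if k = i then x i else x k + x i)` preserves volume (in the coordinates `i.insertNth t z`:
`(t, z) ↦ (t, z + t • 1)`, translation invariance in `z` for each `t`, Fubini); use `setInt_Em`, `volume_preserving_piFinSuccAbove`.
`∑ (insertNth 0 z + t • 1) = ∑ z + (n + 1) t`. Alternatively work with `Em_ins i`: for fixed `t > 0`,
`∫ z in {t ≤ z k}, F z ∂Em n = exp (-n t) ∫ z, F (z + t • 1) ∂Em n`.
`split`: a.e. (`Em`) exactly one `i` has `x i ≤ x k` for all `k` (hyperplanes `x i = x k` are null: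
`Em_eq`, `withDensity_absolutelyContinuous`, `Measure.addHaar_submodule`), so `f = ∑ i, indicator (Sec i) f` a.e. -/

open MeasureTheory Set Matrix Real

noncomputable section

namespace Vale.Agent.P254L
variable {n : ℕ}

/-- the sector where the coordinate `i` is minimal -/
def Sec (i : Fin (n + 1)) : Set (R (n + 1)) := {x | ∀ k, x i ≤ x k}

theorem sect_mp (i : Fin (n + 1)) :
    MeasurePreserving (fun p : ℝ × R n => (i.insertNth 0 p.2 + p.1 • (1 : R (n + 1)) : R (n + 1)))
      (volume.prod volume) volume := by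
  have h1 := (MeasurePreserving.id (volume : Measure ℝ)).skew_product
    (g := fun (t : ℝ) (z : R n) => z + t • (1 : R n)) (μc := volume) (μd := volume)
    (by unfold Function.uncurry; fun_prop) (.of_forall fun t => map_add_right_eq_self _ _)
  have h2 := ((volume_preserving_piFinSuccAbove (fun _ : Fin (n + 1) => ℝ) i).symm _).comp h1
  refine (congrArg (MeasurePreserving · _ _) (funext fun p => ?_)).mp h2
  funext k
  rcases i.eq_self_or_eq_succAbove k with rfl | ⟨j, rfl⟩ <;>
    simp [MeasurableEquiv.piFinSuccAbove, Fin.insertNthEquiv]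

theorem sector (i : Fin (n + 1)) {f : R (n + 1) → ℝ} (hf : Integrable f (Em (n + 1))) :
    Integrable (fun z : R n => ∫ t in Ioi (0 : ℝ),
      f (i.insertNth 0 z + t • (1 : R (n + 1))) * exp (-((n + 1) * t))) (Em n) ∧
    (∀ᵐ (z : R n) ∂Em n, IntegrableOn (fun t : ℝ =>
      f (i.insertNth 0 z + t • (1 : R (n + 1))) * exp (-((n + 1) * t))) (Ioi 0)) ∧
    ∫ x in Sec i, f x ∂Em (n + 1) = ∫ z : R n, (∫ t in Ioi (0 : ℝ),
      f (i.insertNth 0 z + t • (1 : R (n + 1))) * exp (-((n + 1) * t))) ∂Em n := by
  have hO := fun N => (isClosed_O N).measurableSet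
  have hS : MeasurableSet (Sec i) := by
    have : Sec i = ⋂ k, {x : R (n + 1) | x i ≤ x k} := by
      ext x
      simp [Sec]
    rw [this]
    exact MeasurableSet.iInter fun k => measurableSet_le (measurable_pi_apply i)
      (measurable_pi_apply k)
  have h1 := (integrable_indicator_iff (hO _)).2 (intOn_Em (hf.indicator hS))
  set G : ℝ × R n → ℝ := fun p =>
    f (i.insertNth 0 p.2 + p.1 • (1 : R (n + 1))) * exp (-((n + 1) * p.1)) with hG
  have e : ∀ p : ℝ × R n, (O (n + 1)).indicator
      (fun x => (Sec i).indicator f x * exp (-∑ k, x k))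
      (i.insertNth 0 p.2 + p.1 • (1 : R (n + 1))) =
      (Ici 0 ×ˢ O n).indicator (fun p => G p * exp (-∑ k, p.2 k)) p := by
    rintro ⟨t, z⟩
    have a1 : (i.insertNth 0 z + t • (1 : R (n + 1))) ∈ Sec i ↔ z ∈ O n := by
      simp [Sec, O, i.forall_iff_succAbove]
    have a2 : (i.insertNth 0 z + t • (1 : R (n + 1))) ∈ O (n + 1) ↔ 0 ≤ t ∧ ∀ k, 0 ≤ z k + t := by
      simp [O, i.forall_iff_succAbove]
    by_cases h : (t, z) ∈ Ici (0 : ℝ) ×ˢ O n
    · rw [indicator_of_mem h, indicator_of_mem (a2.2 ⟨h.1, fun k => add_nonneg (h.2 k) h.1⟩),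
        indicator_of_mem (a1.2 h.2), hG, mul_assoc, ← exp_add]
      congr 2
      simp [Finset.sum_add_distrib, i.sum_univ_succAbove]
      ring
    · rw [indicator_of_notMem h]
      by_cases h' : z ∈ O n
      · exact indicator_of_notMem (fun a => h ⟨(a2.1 a).1, h'⟩) _
      · refine indicator_apply_eq_zero.2 fun _ => ?_
        rw [indicator_of_notMem (mt a1.1 h'), zero_mul]
  have hm : MeasurableSet (Ici (0 : ℝ) ×ˢ O n) := measurableSet_Ici.prod (hO n)
  have h2 := (sect_mp i).integrable_comp_of_integrable h1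
  rw [show (_ ∘ _) = _ from funext e, integrable_indicator_iff hm] at h2
  have hd : Measurable fun x : R n => ENNReal.ofReal (exp (-∑ k, x k)) := by fun_prop
  have hd' : Measurable fun p : ℝ × R n => ENNReal.ofReal (exp (-∑ k, p.2 k)) :=
    hd.comp measurable_snd
  have e2 : (volume.restrict (Ioi (0 : ℝ))).prod (Em n) =
      (((volume : Measure ℝ).prod volume).restrict (Ici 0 ×ˢ O n)).withDensity
        fun p => ENNReal.ofReal (exp (-∑ k, p.2 k)) := by
    rw [Em_eq, prod_withDensity_right hd, Measure.restrict_congr_set Ioi_ae_eq_Ici,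
      Measure.prod_restrict]
  have h3 : Integrable G ((volume.restrict (Ioi (0 : ℝ))).prod (Em n)) := by
    rw [e2, integrable_withDensity_iff hd'
      (.of_forall fun _ => ENNReal.ofReal_lt_top)]
    simp only [ENNReal.toReal_ofReal (exp_pos _).le]
    exact h2
  have : SFinite (Em n) := by
    rw [Em_eq]
    infer_instance
  refine ⟨h3.integral_prod_right, h3.prod_left_ae, ?_⟩
  refine Eq.trans ?_ (integral_prod_symm G h3)
  rw [e2, integral_withDensity_eq_integral_toReal_smul hd'
    (.of_forall fun _ => ENNReal.ofReal_lt_top), ← integral_indicator hS, int_Em,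
    ← integral_indicator (hO _), ← (sect_mp i).map_eq,
    integral_map (sect_mp i).aemeasurable ((sect_mp i).map_eq.symm ▸ h1.1)]
  simp only [e, integral_indicator hm]
  simp only [ENNReal.toReal_ofReal (exp_pos _).le, smul_eq_mul, mul_comm]


end Vale.Agent.P254L
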