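import Vale.Agent.P254L.EmN
import Vale.Agent.P254L.Sect

/-! Fibres in the direction `(1, …, 1)`.
`sector`: the shear `x ↦ (fun k => if k = i then x i else x k + x i)` preserves volume (in the coordinates `i.insertNth t z`:
`(t, z) ↦ (t, z + t • 1)`, translation invariance in `z` for each `t`, Fubini); use `setInt_Em`, `volume_preserving_piFinSuccAbove`.
`∑ (insertNth 0 z + t • 1) = ∑ z + (n + 1) t`. Alternatively work with `Em_ins i`: for fixed `t > 0`,
`∫ z in {t ≤ z k}, F z ∂Em n = exp (-n t) ∫ z, F (z + t • 1) ∂Em n`.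
`split`: a.e. (`Em`) exactly one `i` has `x i ≤ x k` for all `k` (hyperplanes `x i = x k` are null:
`Em_eq`, `withDensity_absolutelyContinuous`, `Measure.addHaar_submodule`), so `f = ∑ i, indicator (Sec i) f` a.e. -/

open MeasureTheory Set Matrix Real

noncomputable section

namespace Vale.Agent.P254L

variable {n : ℕ}

theorem split_null {i j : Fin (n + 1)} (h : i ≠ j) : Em (n + 1) {x | x i = x j} = 0 := by
  rw [Em_eq]
  refine (withDensity_absolutelyContinuous _ _).trans Measure.absolutelyContinuous_restrict ?_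
  refine Measure.addHaar_submodule volume (LinearMap.eqLocus
    (LinearMap.proj i : R (n + 1) →ₗ[ℝ] ℝ) (LinearMap.proj j)) fun e => ?_
  have h1 : (Pi.single i 1 : R (n + 1)) i = (Pi.single i 1 : R (n + 1)) j :=
    e.ge (Submodule.mem_top (x := (Pi.single i 1 : R (n + 1))))
  simp [h.symm] at h1

theorem split {f : R (n + 1) → ℝ} (hf : Integrable f (Em (n + 1))) :
    ∫ x, f x ∂Em (n + 1) = ∑ i, ∫ x in Sec i, f x ∂Em (n + 1) := by
  have hc : ∀ i : Fin (n + 1), MeasurableSet (Sec i) := fun i => by
    rw [Sec, ofPred_forall]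
    exact MeasurableSet.iInter fun k =>
      measurableSet_le (measurable_pi_apply i) (measurable_pi_apply k)
  have hu : (⋃ i : Fin (n + 1), Sec i) = univ := eq_univ_of_forall fun x =>
    mem_iUnion.2 (Finite.exists_min x)
  rw [← setIntegral_univ, ← hu, integral_iUnion_ae (fun i => (hc i).nullMeasurableSet)
    (fun i j h => measure_mono_null (fun x hx => le_antisymm (hx.1 j) (hx.2 i)) (split_null h))
    hf.integrableOn, tsum_fintype]

end Vale.Agent.P254L
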