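import Vale.Agent.P254L.Facet
import Vale.Agent.P254L.Split
import Vale.Agent.P254L.Gauge
import Vale.Agent.P254L.AMGM

/-! The inequality for cones in good position. -/

open MeasureTheory Set Matrix Real

noncomputable section

namespace Vale.Agent.P254L

variable {n : ℕ}

theorem core_ins (i : Fin (n + 1)) (z w : R n) (a b : ℝ) :
    (i.insertNth (0 : ℝ) (a • z + b • w) : R (n + 1))
      = a • (i.insertNth (0 : ℝ) z : R (n + 1)) + b • (i.insertNth (0 : ℝ) w : R (n + 1)) := by
  funext k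
  refine i.succAboveCases ?_ (fun j => ?_) k <;> simp

theorem core_lip (i : Fin (n + 1)) :
    LipschitzWith 1 fun z : R n => (i.insertNth (0 : ℝ) z : R (n + 1)) := by
  refine LipschitzWith.of_dist_le_mul fun z w => ?_
  rw [NNReal.coe_one, one_mul]
  refine (dist_pi_le_iff dist_nonneg).2 fun k => ?_
  refine i.succAboveCases ?_ (fun j => ?_) k
  · simp
  · simpa using dist_le_pi_dist z w j

theorem core_one (i : Fin (n + 1)) :
    (i.insertNth (0 : ℝ) (1 : R n) : R (n + 1)) = 1 - Pi.single i 1 := by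
  funext k
  refine i.succAboveCases ?_ (fun j => ?_) k
  · simp
  · simp [Fin.succAbove_ne]

theorem core_mem (i : Fin (n + 1)) {z : R n} (hz : z ∈ O n) {t : ℝ} (ht : 0 ≤ t) :
    (i.insertNth (0 : ℝ) z + t • (1 : R (n + 1))) ∈ O (n + 1) := by
  intro k
  refine i.succAboveCases ?_ (fun j => ?_) k
  · simpa using ht
  · simpa using add_nonneg (hz j) ht

theorem core_fib {V : Set (R (n + 1))} {ε : ℝ} {H : R (n + 1) → ℝ} (h : Ht V ε H)
    (f : R (n + 1) → ℝ) (i : Fin (n + 1)) {z : R n} (hz : z ∈ O n) :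
    EqOn (fun t : ℝ => (O (n + 1) \ V).indicator f (i.insertNth 0 z + t • (1 : R (n + 1)))
      * exp (-((n + 1) * t)))
      ((Iio (H (i.insertNth 0 z))).indicator fun t : ℝ =>
        f (i.insertNth 0 z + t • (1 : R (n + 1))) * exp (-((n + 1) * t))) (Ioi 0) := by
  intro t ht
  have e : (i.insertNth (0 : ℝ) z + t • (1 : R (n + 1))) ∈ O (n + 1) \ V ↔
      t ∈ Iio (H (i.insertNth 0 z)) := by
    rw [mem_sdiff, h.mem, h.sh, mem_Iio]
    exact ⟨fun a => by linarith [not_le.1 a.2], fun a => ⟨core_mem i hz (le_of_lt ht), by linarith⟩⟩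
  by_cases ha : t ∈ Iio (H (i.insertNth 0 z))
  · simp only [indicator_of_mem ha, indicator_of_mem (e.2 ha)]
  · simp only [indicator_of_notMem ha, indicator_of_notMem (fun b => ha (e.1 b)), zero_mul]

theorem core_sec {V : Set (R (n + 1))} (hV : IsClosed V) {ε : ℝ} {H : R (n + 1) → ℝ}
    (h : Ht V ε H) {f : R (n + 1) → ℝ} (hf : Integrable f (Em (n + 1))) (i : Fin (n + 1))
    {g : R n → ℝ} (hg : Integrable (fun z : R n => H (i.insertNth 0 z) * g z) (Em n))
    (hb : ∀ z ∈ O n, ∀ t : ℝ, 0 < t → t < H (i.insertNth 0 z) →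
      g z ≤ f (i.insertNth 0 z + t • (1 : R (n + 1))) * exp (-((n + 1) * t))) :
    ∫ z : R n, H (i.insertNth 0 z) * g z ∂Em n
      ≤ ∫ x in Sec i, (O (n + 1) \ V).indicator f x ∂Em (n + 1) := by
  have hm : MeasurableSet (O (n + 1) \ V) := (isClosed_O _).measurableSet.diff hV.measurableSet
  obtain ⟨s1, s2, s3⟩ := sector i (hf.indicator hm)
  rw [s3]
  refine integral_mono_ae hg s1 ?_
  filter_upwards [s2, ae_Em] with z z2 z0
  have hz : z ∈ O n := fun k => (z0 k).le
  have h0 : 0 ≤ H (i.insertNth 0 z) := by simpa using h.lo (i.insertNth 0 z) i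
  have e := core_fib h f i hz
  have z3 := z2.congr_fun e measurableSet_Ioi
  rw [setIntegral_congr_fun measurableSet_Ioi e]
  have e2 : H (i.insertNth 0 z) * g z = ∫ t in Ioi (0 : ℝ),
      (Iio (H (i.insertNth 0 z))).indicator (fun _ => g z) t := by
    rw [setIntegral_indicator measurableSet_Iio, Ioi_inter_Iio, setIntegral_const,
      volume_real_Ioo_of_le h0, sub_zero, smul_eq_mul]
  rw [e2]
  refine setIntegral_mono_on ?_ z3 measurableSet_Ioi fun t ht => ?_
  · rw [IntegrableOn, integrable_indicator_iff measurableSet_Iio, IntegrableOn,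
      Measure.restrict_restrict measurableSet_Iio, Iio_inter_Ioi]
    exact integrableOn_const (by simp)
  · by_cases ha : t ∈ Iio (H (i.insertNth 0 z))
    · simp only [indicator_of_mem ha]
      exact hb z hz t ht ha
    · simp only [indicator_of_notMem ha, le_refl]

theorem core_gr (i : Fin n) : Gr fun z : R n => z i :=
  Gr.of_lip (LipschitzWith.eval i)

theorem core_add {X : Type} [NormedAddCommGroup X] {f g : X → ℝ} (hf : Gr f) (hg : Gr g) :
    Gr fun x => f x + g x := by
  obtain ⟨C, m, h1⟩ := hf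
  obtain ⟨D, k, h2⟩ := hg
  refine ⟨|C| + |D|, m + k, fun x => ?_⟩
  have h0 : (1 : ℝ) ≤ 1 + ‖x‖ := le_add_of_nonneg_right (norm_nonneg x)
  have a1 : (1 + ‖x‖) ^ m ≤ (1 + ‖x‖) ^ (m + k) := pow_le_pow_right₀ h0 (Nat.le_add_right _ _)
  have a2 : (1 + ‖x‖) ^ k ≤ (1 + ‖x‖) ^ (m + k) := pow_le_pow_right₀ h0 (Nat.le_add_left _ _)
  have b1 : C * (1 + ‖x‖) ^ m ≤ |C| * (1 + ‖x‖) ^ (m + k) :=
    mul_le_mul (le_abs_self C) a1 (by positivity) (abs_nonneg C)
  have b2 : D * (1 + ‖x‖) ^ k ≤ |D| * (1 + ‖x‖) ^ (m + k) :=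
    mul_le_mul (le_abs_self D) a2 (by positivity) (abs_nonneg D)
  have := abs_add_le (f x) (g x)
  have := h1 x
  have := h2 x
  linarith

theorem core_const {X : Type} [NormedAddCommGroup X] (c : ℝ) : Gr fun _ : X => c :=
  ⟨|c|, 0, fun _ => by simp⟩

theorem core_sum {X ι : Type} [NormedAddCommGroup X] (s : Finset ι) {f : ι → X → ℝ}
    (h : ∀ i, Gr (f i)) : Gr fun x => ∑ i ∈ s, f i x := by
  classical
  induction s using Finset.induction_on with
  | empty => simpa using core_const (X := X) 0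
  | insert a s ha ih => simpa only [Finset.sum_insert ha] using core_add (h a) ih

theorem core_sq (N : ℕ) : Gr fun z : R N => ∑ j, z j ^ 2 :=
  core_sum _ fun j => by simpa only [sq] using (core_gr j).mul (core_gr j)

theorem core_ff (N : ℕ) : Integrable (ff : R N → ℝ) (Em N) := by
  refine Em_int (Continuous.aestronglyMeasurable (by unfold ff; fun_prop)) ?_
  have := core_add (core_sq N) (core_const (-(2 * (N : ℝ) + 2)))
  simp only [← sub_eq_add_neg] at this
  exact this

theorem core_pt (i : Fin (n + 1)) {z : R n} (hz : z ∈ O n) {ε t : ℝ} (ht : 0 < t)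
    (h : t ≤ ε * ∑ j, z j) : (∑ j, z j ^ 2) * (1 - (n + 1) * ε * ∑ j, z j) - (2 * (n + 1) + 2)
      ≤ ff (i.insertNth 0 z + t • (1 : R (n + 1))) * exp (-((n + 1) * t)) := by
  have q0 : 0 ≤ ∑ j, z j ^ 2 := Finset.sum_nonneg fun j _ => sq_nonneg _
  have e1 : ∑ j, z j ^ 2 ≤ ∑ k, ((i.insertNth (0 : ℝ) z : R (n + 1)) + t • (1 : R (n + 1))) k ^ 2 := by
    rw [Fin.sum_univ_succAbove _ i]
    refine le_add_of_nonneg_of_le (sq_nonneg _) (Finset.sum_le_sum fun j _ => ?_)
    have := hz j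
    simp only [Pi.add_apply, Fin.insertNth_apply_succAbove, Pi.smul_apply, Pi.one_apply,
      smul_eq_mul, mul_one]
    nlinarith
  have n0 : (0 : ℝ) ≤ n + 1 := by positivity
  have e2 : exp (-((n + 1) * t)) ≤ 1 := exp_le_one_iff.2 (by nlinarith)
  have e3 : 1 - (n + 1) * ε * ∑ j, z j ≤ exp (-((n + 1) * t)) := by
    have := add_one_le_exp (-((n + 1) * t))
    nlinarith
  have e4 := exp_pos (-((n + 1) * t))
  unfold ff
  push_cast
  nlinarith [mul_le_mul_of_nonneg_left e3 q0, mul_le_mul_of_nonneg_right e1 e4.le]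

theorem core (n : ℕ) : ∃ η : ℝ, 0 < η ∧ η * (n + 1) ≤ 1 / 2 ∧ ∀ V : Set (R (n + 1)), Cn V →
    Oe (n + 1) η ⊆ V → V ⊆ O (n + 1) → (∀ i, (1 - Pi.single i 1 : R (n + 1)) ∈ V) →
    0 < zz V 1 → iv V 1 ≤ iv (O (n + 1)) 1 ∧ (iv V 1 = iv (O (n + 1)) 1 → V = O (n + 1)) := by
  obtain ⟨ε, c, e0, c0, hf⟩ := facet n
  have n0 : (0 : ℝ) < n + 1 := by positivity
  have h0 : 0 < min (ε / 2) (1 / (2 * (n + 1))) := lt_min (by linarith) (by positivity)
  have h1 : min (ε / 2) (1 / (2 * (n + 1))) * (n + 1) ≤ 1 / 2 := by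
    refine (mul_le_mul_of_nonneg_right (min_le_right _ _) n0.le).trans (le_of_eq ?_)
    field_simp
  refine ⟨_, h0, h1, fun V hV hi hO hu hZ => ?_⟩
  obtain ⟨H, hH⟩ := exists_ht hV h0 h1 hi hO
  obtain ⟨L, hL⟩ := hH.lip
  have hm : MeasurableSet (O (n + 1) \ V) := (isClosed_O _).measurableSet.diff hV.cl.measurableSet
  have l1 : ∀ i : Fin (n + 1), LipschitzWith (L * 1) fun z : R n => H (i.insertNth 0 z) :=
    fun i => hL.comp (core_lip i)
  have up : ∀ (i : Fin (n + 1)), ∀ z ∈ O n, H (i.insertNth 0 z) ≤ ε * ∑ j, z j := by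
    intro i z hz
    have a := hH.up _ (core_mem i hz le_rfl)
    rw [zero_smul, add_zero, Fin.sum_univ_succAbove _ i] at a
    simp only [Fin.insertNth_apply_same, Fin.insertNth_apply_succAbove, zero_add] at a
    have b : 0 ≤ ∑ j, z j := Finset.sum_nonneg fun j _ => hz j
    have := min_le_left (ε / 2) (1 / (2 * ((n : ℝ) + 1)))
    nlinarith
  have k1 : ∀ i : Fin (n + 1), c * ∫ z : R n, H (i.insertNth 0 z) ∂Em n
      ≤ ∫ x in Sec i, (O (n + 1) \ V).indicator ff x ∂Em (n + 1) := by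
    intro i
    refine (hf _ _ ?_ (l1 i) (fun t ht z => ?_) (fun z _ => ?_) ?_).trans
      (core_sec hV.cl hH (core_ff _) i ?_ fun z hz t ht hl => core_pt i hz ht (hl.le.trans (up i z hz)))
    · refine ⟨convex_univ, fun z _ w _ a b ha hb hab => ?_⟩
      simp only [core_ins]
      exact hH.cv.2 (mem_univ _) (mem_univ _) ha hb hab
    · have := core_ins i z z t 0
      rw [zero_smul, zero_smul, add_zero, add_zero] at this
      rw [this, hH.hom t ht]
    · simpa using hH.lo (i.insertNth 0 z) i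
    · rw [core_one]
      exact (hH.mem _).1 (hu i)
    · refine Em_int (Continuous.aestronglyMeasurable ((l1 i).continuous.mul (by fun_prop))) ?_
      refine (Gr.of_lip (l1 i)).mul ?_
      have := core_add ((core_sq n).mul (core_add (core_const 1) ((core_const (-((n + 1) * ε))).mul
        (core_sum Finset.univ fun j => core_gr j)))) (core_const (-(2 * ((n : ℝ) + 1) + 2)))
      simpa only [sub_eq_add_neg, neg_mul] using this
  have k2 : ∀ i : Fin (n + 1), ∫ x in Sec i, (O (n + 1) \ V).indicator (fun _ => (1 : ℝ)) x ∂Em (n + 1)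
      ≤ ∫ z : R n, H (i.insertNth 0 z) ∂Em n := by
    intro i
    have hi : Integrable (fun z : R n => H (i.insertNth 0 z) * (-1)) (Em n) :=
      (Em_int (l1 i).continuous.aestronglyMeasurable (Gr.of_lip (l1 i))).mul_const _
    have := core_sec hV.cl hH (f := fun _ => -1) (integrable_const _) i hi fun z _ t ht _ => by
      have : exp (-((n + 1) * t)) ≤ 1 := exp_le_one_iff.2 (by nlinarith)
      linarith
    have e : ∀ x, (O (n + 1) \ V).indicator (fun _ => (-1 : ℝ)) x
        = -(O (n + 1) \ V).indicator (fun _ => (1 : ℝ)) x := fun x => by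
      by_cases hx : x ∈ O (n + 1) \ V <;> simp [hx]
    simp only [mul_neg, mul_one, integral_neg, e] at this
    linarith
  have k3 : c * (Em (n + 1)).real (O (n + 1) \ V) ≤ ∫ x in O (n + 1) \ V, ff x ∂Em (n + 1) := by
    rw [← integral_indicator hm, split ((core_ff _).indicator hm), ← integral_indicator_one hm]
    have := split ((integrable_const (μ := Em (n + 1)) (1 : ℝ)).indicator hm)
    rw [show ∫ x, (O (n + 1) \ V).indicator 1 x ∂Em (n + 1)
      = ∫ x, (O (n + 1) \ V).indicator (fun _ => (1 : ℝ)) x ∂Em (n + 1) from rfl, this,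
      Finset.mul_sum]
    exact Finset.sum_le_sum fun i _ => (mul_le_mul_of_nonneg_left (k2 i) c0.le).trans (k1 i)
  obtain ⟨a1, a2⟩ := amgm (Nat.succ_pos n) hV hO hZ
  rw [iv_O]
  refine ⟨a1 ((mul_nonneg c0.le measureReal_nonneg).trans k3), fun he => eq_O hV.cl hO ?_⟩
  by_contra hne
  have : 0 < (Em (n + 1)).real (O (n + 1) \ V) :=
    ENNReal.toReal_pos hne (measure_ne_top _ _)
  exact (a2 ((mul_pos c0 this).trans_le k3)).ne he

end Vale.Agent.P254L
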