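import Vale.Agent.P254.Defs

/-! The simplex is a local maximiser of the isotropic constant: proof-side definitions. FROZEN. -/

open MeasureTheory Set Matrix Real

noncomputable section

namespace Vale.Agent.P254L

/-- coordinate space -/
abbrev R (N : ℕ) : Type := Fin N → ℝ

/-- the orthant -/
def O (N : ℕ) : Set (R N) := {x | ∀ k, 0 ≤ x k}

/-- the shrunken (`η > 0`) or enlarged (`η < 0`) orthant -/
def Oe (N : ℕ) (η : ℝ) : Set (R N) := {x | ∀ k, η * ∑ j, x j ≤ x k}

/-- the exponential law -/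
def em : Measure ℝ := (volume.restrict (Ioi 0)).withDensity fun x => ENNReal.ofReal (exp (-x))

/-- the product of exponential laws -/
def Em (N : ℕ) : Measure (R N) := Measure.pi fun _ => em

variable {N n : ℕ}

/-- Laplace transform of a cone -/
def zz (V : Set (R N)) (y : R N) : ℝ := ∫ x in V, exp (-(y ⬝ᵥ x))

/-- second moments -/
def mom (V : Set (R N)) (y : R N) : Matrix (Fin N) (Fin N) ℝ :=
  Matrix.of fun i j => ∫ x in V, x i * x j * exp (-(y ⬝ᵥ x))

/-- the linear invariant -/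
def iv (V : Set (R N)) (y : R N) : ℝ := (mom V y).det / zz V y ^ (N + 2)

/-- closed convex cones -/
structure Cn (V : Set (R N)) : Prop where
  cl : IsClosed V
  cv : Convex ℝ V
  sm : ∀ t : ℝ, 0 ≤ t → ∀ x ∈ V, t • x ∈ V

/-- homogeneous coordinates -/
def hc (x : EuclideanSpace ℝ (Fin n)) : R (n + 1) := Fin.cons 1 fun i => x i

/-- the cone over a set -/
def cone (K : Set (EuclideanSpace ℝ (Fin n))) : Set (R (n + 1)) :=
  {X | ∃ s : ℝ, 0 ≤ s ∧ ∃ x ∈ K, X = s • hc x}

/-- the second Laguerre polynomial (times two) -/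
def lag (x : ℝ) : ℝ := x ^ 2 - 4 * x + 2

/-- the test function -/
def ff (x : R N) : ℝ := ∑ k, x k ^ 2 - (2 * N + 2)

/-- polynomial growth -/
def Gr {X : Type} [NormedAddCommGroup X] (f : X → ℝ) : Prop :=
  ∃ (C : ℝ) (m : ℕ), ∀ x, |f x| ≤ C * (1 + ‖x‖) ^ m

/-- the height function of a cone in the direction `(1, …, 1)` -/
structure Ht (V : Set (R N)) (ε : ℝ) (H : R N → ℝ) : Prop where
  cv : ConvexOn ℝ univ H
  lip : ∃ L, LipschitzWith L H
  hom : ∀ t : ℝ, 0 < t → ∀ x, H (t • x) = t * H x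
  sh : ∀ (x : R N) (t : ℝ), H (x + t • (1 : R N)) = H x - t
  mem : ∀ x, x ∈ V ↔ H x ≤ 0
  lo : ∀ x k, -x k ≤ H x
  up : ∀ x ∈ O N, H x ≤ ε * ∑ j, x j

theorem isClosed_O (N : ℕ) : IsClosed (O N) := by
  have : O N = ⋂ k, {x : R N | 0 ≤ x k} := by
    ext x
    simp [O]
  rw [this]
  exact isClosed_iInter fun k => isClosed_le continuous_const (continuous_apply k)

end Vale.Agent.P254L
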