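import Vale.Agent.P254L.Defs

/-! The exponential law on the line.
Hints: `integral_withDensity_eq_integral_toReal_smul` (or `..._smul₀`), `integrable_withDensity_iff_integrable_smul₀`,
`Real.Gamma_eq_integral`, `Real.Gamma_nat_eq_factorial`, `Real.GammaIntegral_convergent`, `integral_exp_neg_Ioi_zero`.
`em_int`: on `x > 0`, `(1 + x) ^ m` is a finite sum of powers (`add_pow`) or `≤ 2 ^ m * (1 + x ^ m)` (`add_pow_le`).
`em_half`: substitute `y = (1 + x) / 2` (`integral_comp_mul_left_Ioi`, `integral_comp_add_right_Ioi` or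
`integral_Ioi_comp..`): the left side is `∫ y in Ioi (1/2), G y * 2 * exp (1 - 2 y)` and `2 exp (1 - 2y) ≤ 4 exp (-y)` for `y ≥ 1/2`
(`exp (1/2) ≤ 2`). -/

open MeasureTheory Set Matrix Real

noncomputable section

namespace Vale.Agent.P254L

theorem em1_meas : Measurable fun x : ℝ => ENNReal.ofReal (exp (-x)) := by
  fun_prop

theorem em1_int {f : ℝ → ℝ} :
    Integrable f em ↔ IntegrableOn (fun x => f x * exp (-x)) (Ioi 0) := by
  unfold em
  rw [integrable_withDensity_iff em1_meas (.of_forall fun _ => ENNReal.ofReal_lt_top)]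
  simp only [ENNReal.toReal_ofReal (exp_pos _).le]
  rfl

theorem int_em (f : ℝ → ℝ) : ∫ x, f x ∂em = ∫ x in Ioi (0 : ℝ), f x * exp (-x) := by
  unfold em
  rw [integral_withDensity_eq_integral_toReal_smul em1_meas
    (.of_forall fun _ => ENNReal.ofReal_lt_top)]
  simp only [ENNReal.toReal_ofReal (exp_pos _).le, smul_eq_mul, mul_comm]

instance em_prob : IsProbabilityMeasure em := by
  constructor
  unfold em
  rw [withDensity_apply _ MeasurableSet.univ, Measure.restrict_univ,
    ← ofReal_integral_eq_lintegral_ofReal (integrableOn_exp_neg_Ioi 0)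
      (.of_forall fun _ => (exp_pos _).le), integral_exp_neg_Ioi_zero, ENNReal.ofReal_one]

instance Em_prob (N : ℕ) : IsProbabilityMeasure (Em N) := by
  unfold Em
  infer_instance

theorem ae_em : ∀ᵐ x ∂em, 0 < x :=
  (withDensity_absolutelyContinuous _ _).ae_le (ae_restrict_mem measurableSet_Ioi)

theorem em1_pow (k : ℕ) : Integrable (fun x : ℝ => x ^ k) em := by
  rw [em1_int]
  have h := Real.GammaIntegral_convergent (s := (k : ℝ) + 1) (by positivity)
  simp only [add_sub_cancel_right, rpow_natCast] at h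
  simpa only [mul_comm] using h

theorem em_int {f : ℝ → ℝ} (hf : AEStronglyMeasurable f em) (hg : Gr f) : Integrable f em := by
  obtain ⟨C, m, h⟩ := hg
  have h1 : Integrable (fun x : ℝ => |C| * (2 ^ (m - 1) * (1 ^ m + x ^ m))) em :=
    (((integrable_const _).add (em1_pow m)).const_mul _).const_mul _
  refine h1.mono' hf ?_
  filter_upwards [ae_em] with x hx
  have h2 := h x
  rw [Real.norm_of_nonneg hx.le] at h2
  exact h2.trans (mul_le_mul (le_abs_self C) (add_pow_le zero_le_one hx.le m) (by positivity)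
    (abs_nonneg C))

theorem em_pow (k : ℕ) : ∫ x, x ^ k ∂em = k.factorial := by
  rw [int_em, ← Real.Gamma_nat_eq_factorial, Real.Gamma_eq_integral (by positivity)]
  simp only [add_sub_cancel_right, rpow_natCast, mul_comm]

theorem em1_shift (g : ℝ → ℝ) (a c : ℝ) :
    ∫ x in Ioi a, g (c + x) = ∫ x in Ioi (c + a), g x := by
  rw [← integral_indicator measurableSet_Ioi, ← integral_indicator measurableSet_Ioi,
    ← integral_add_left_eq_self (fun x => (Ioi (c + a)).indicator g x) c]
  congr 1
  funext x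
  simp only [indicator, mem_Ioi, add_lt_add_iff_left]

theorem em_half {G : ℝ → ℝ} (h0 : ∀ x, 0 < x → 0 ≤ G x) (hG : Integrable G em) :
    ∫ x, G ((1 + x) / 2) ∂em ≤ 4 * ∫ x, G x ∂em := by
  rw [em1_int] at hG
  rw [int_em, int_em]
  have e1 : ∫ x in Ioi (0 : ℝ), G ((1 + x) / 2) * exp (-x) =
      2 * ∫ y in Ioi (1 / 2 : ℝ), G y * exp (1 - 2 * y) := by
    have h1 := em1_shift (fun x => G (1 / 2 * x) * exp (1 - 2 * (1 / 2 * x))) 0 1
    have h2 := integral_comp_mul_left_Ioi (fun y => G y * exp (1 - 2 * y)) (1 + 0)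
      (b := 1 / 2) (by norm_num)
    rw [h2] at h1
    norm_num at h1 ⊢
    rw [← h1]
    congr 1
    funext x
    congr 2 <;> ring
  have hs : Ioi (1 / 2 : ℝ) ⊆ Ioi 0 := Ioi_subset_Ioi (by norm_num)
  have e2 : ∫ y in Ioi (1 / 2 : ℝ), G y * exp (1 - 2 * y) ≤
      ∫ y in Ioi (1 / 2 : ℝ), 2 * (G y * exp (-y)) := by
    refine integral_mono_of_nonneg ?_ ((hG.mono_set hs).const_mul 2) ?_
    · filter_upwards [ae_restrict_mem measurableSet_Ioi] with y hy
      exact mul_nonneg (h0 y (hs hy)) (exp_pos _).le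
    · filter_upwards [ae_restrict_mem measurableSet_Ioi] with y hy
      have h3 : exp (1 - y) ≤ 2 := by
        have h4 : exp (1 - y) ≤ exp (1 / 2) := exp_le_exp.2 (by
          have := mem_Ioi.1 hy
          linarith)
        have h5 : exp (1 / 2 : ℝ) * exp (1 / 2) = exp 1 := by
          rw [← exp_add]
          norm_num
        have h6 := exp_one_lt_d9
        have h7 := exp_pos (1 / 2 : ℝ)
        nlinarith
      have h8 : exp (1 - 2 * y) = exp (1 - y) * exp (-y) := by
        rw [← exp_add]
        congr 1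
        ring
      have h9 := mul_nonneg (h0 y (hs hy)) (exp_pos (-y)).le
      rw [h8]
      nlinarith
  have e3 : ∫ y in Ioi (1 / 2 : ℝ), G y * exp (-y) ≤ ∫ y in Ioi (0 : ℝ), G y * exp (-y) := by
    refine setIntegral_mono_set hG ?_ hs.eventuallyLE
    filter_upwards [ae_restrict_mem measurableSet_Ioi] with y hy
    exact mul_nonneg (h0 y hy) (exp_pos _).le
  rw [integral_const_mul] at e2
  rw [e1]
  linarith

end Vale.Agent.P254L
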