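import Vale.Agent.P254L.Lag1

/-! The product law.
Hints: `Em_eq`: `Measure.pi_eq` on boxes `univ.pi s`; `O N` is a.e. equal to `univ.pi fun _ => Ioi 0` (`Measure.univ_pi_Ioi_ae_eq_Ici` or
`pi_Ioi_ae_eq_pi_Ici`), `exp_sum`, `ENNReal.ofReal_prod_of_nonneg`, `lintegral_fintype_prod_eq_prod`
(or real integrals: `integral_fintype_prod_eq_prod` with indicators). `Em_int`: `(1 + ‖x‖) ^ m ≤ ∏ k, (1 + |x k|) ^ m`,
`Integrable.fintype_prod`. `Em_mom`: `integral_fintype_prod_eq_prod` for `∏ k, x k ^ (e k)`, `em_pow`.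
`Em_ins`, `Em_ins_int`: `measurePreserving_piFinSuccAbove`, `integral_prod_symm`, `MeasurableEquiv.piFinSuccAbove_symm_apply`. -/

open MeasureTheory Set Matrix Real

noncomputable section

namespace Vale.Agent.P254L
variable {N n : ℕ}

theorem ema_meas : Measurable fun x : R N => ENNReal.ofReal (exp (-∑ k, x k)) := by
  fun_prop

theorem ema_restrict (N : ℕ) : (volume : Measure (R N)).restrict (O N) =
    Measure.pi fun _ => (volume : Measure ℝ).restrict (Ioi 0) := by
  rw [← Measure.restrict_pi_pi, volume_pi]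
  exact Measure.restrict_congr_set (Measure.univ_pi_Ioi_ae_eq_Ici (f := fun _ => (0 : ℝ))).symm

theorem Em_eq (N : ℕ) : Em N =
    (volume.restrict (O N)).withDensity fun x => ENNReal.ofReal (exp (-∑ k, x k)) := by
  refine Measure.pi_eq fun s hs => ?_
  have hi : ∀ k, Integrable (fun x : ℝ => exp (-x))
      (((volume : Measure ℝ).restrict (Ioi 0)).restrict (s k)) := fun k =>
    (integrableOn_exp_neg_Ioi 0).integrable.restrict
  have he : ∀ x : R N, exp (-∑ k, x k) = ∏ k, exp (-x k) := fun x => by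
    rw [← Finset.sum_neg_distrib, exp_sum]
  rw [withDensity_apply _ (MeasurableSet.univ_pi hs), ema_restrict, Measure.restrict_pi_pi]
  simp only [he]
  rw [← ofReal_integral_eq_lintegral_ofReal (Integrable.fintype_prod hi)
      (.of_forall fun x => Finset.prod_nonneg fun k _ => (exp_pos _).le),
    integral_fintype_prod_eq_prod (fun (_ : Fin N) (x : ℝ) => exp (-x)),
    ENNReal.ofReal_prod_of_nonneg fun k _ => integral_nonneg fun x => (exp_pos _).le]
  refine Finset.prod_congr rfl fun k _ => ?_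
  rw [em, withDensity_apply _ (hs k),
    ofReal_integral_eq_lintegral_ofReal (hi k) (.of_forall fun x => (exp_pos _).le)]

theorem int_Em (f : R N → ℝ) : ∫ x, f x ∂Em N = ∫ x in O N, f x * exp (-∑ k, x k) := by
  rw [Em_eq, integral_withDensity_eq_integral_toReal_smul ema_meas
    (.of_forall fun _ => ENNReal.ofReal_lt_top)]
  refine integral_congr_ae (.of_forall fun x => ?_)
  simp only [ENNReal.toReal_ofReal (exp_pos _).le, smul_eq_mul, mul_comm]

theorem setInt_Em {V : Set (R N)} (hV : MeasurableSet V) (hO : V ⊆ O N) (f : R N → ℝ) :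
    ∫ x in V, f x ∂Em N = ∫ x in V, f x * exp (-∑ k, x k) := by
  rw [Em_eq, setIntegral_withDensity_eq_setIntegral_toReal_smul ema_meas
    (.of_forall fun _ => ENNReal.ofReal_lt_top) _ hV, Measure.restrict_restrict hV,
    inter_eq_left.2 hO]
  refine integral_congr_ae (.of_forall fun x => ?_)
  simp only [ENNReal.toReal_ofReal (exp_pos _).le, smul_eq_mul, mul_comm]

theorem intOn_Em {f : R N → ℝ} (hf : Integrable f (Em N)) :
    IntegrableOn (fun x => f x * exp (-∑ k, x k)) (O N) := by
  rw [Em_eq, integrable_withDensity_iff ema_meas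
    (.of_forall fun _ => ENNReal.ofReal_lt_top)] at hf
  simp only [ENNReal.toReal_ofReal (exp_pos _).le] at hf
  exact hf

theorem ae_Em : ∀ᵐ x ∂Em N, ∀ k, 0 < x k :=
  ae_all_iff.2 fun k => (Measure.tendsto_eval_ae_ae (μ := fun _ : Fin N => em) (i := k)).eventually
    ae_em

/-- nonempty relatively open subsets of the orthant have positive mass -/
theorem eq_O {V : Set (R N)} (hV : IsClosed V) (hO : V ⊆ O N) (h : Em N (O N \ V) = 0) :
    V = O N := by
  have hm : MeasurableSet (O N \ V) := (isClosed_O N).measurableSet.diff hV.measurableSet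
  rw [Em_eq, withDensity_apply_eq_zero ema_meas] at h
  have h1 : {x : R N | ENNReal.ofReal (exp (-∑ k, x k)) ≠ 0} = univ :=
    eq_univ_of_forall fun x => (ENNReal.ofReal_pos.2 (exp_pos _)).ne'
  rw [h1, univ_inter, Measure.restrict_apply hm, inter_eq_left.2 diff_subset] at h
  have hU : IsOpen ((univ.pi fun _ : Fin N => Ioi (0 : ℝ)) \ V) :=
    (isOpen_set_pi finite_univ fun _ _ => isOpen_Ioi).sdiff hV
  have h2 : (univ.pi fun _ : Fin N => Ioi (0 : ℝ)) ⊆ V := diff_eq_empty.1
    (hU.eq_empty_of_measure_zero (measure_mono_null (t := O N \ V)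
      (fun x hx => ⟨fun k => le_of_lt (hx.1 k (mem_univ k)), hx.2⟩) h))
  refine hO.antisymm fun x hx => hV.closure_subset_iff.2 h2 ?_
  rw [closure_pi_set]
  exact fun k _ => by rw [closure_Ioi]; exact hx k

end Vale.Agent.P254L
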