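import Vale.Agent.P254L.Lag1
import Vale.Agent.P254L.EmA

/-! The product law.
Hints: `Em_eq`: `Measure.pi_eq` on boxes `univ.pi s`; `O N` is a.e. equal to `univ.pi fun _ => Ioi 0` (`Measure.univ_pi_Ioi_ae_eq_Ici` or
`pi_Ioi_ae_eq_pi_Ici`), `exp_sum`, `ENNReal.ofReal_prod_of_nonneg`, `lintegral_fintype_prod_eq_prod`
(or real integrals: `integral_fintype_prod_eq_prod` with indicators). `Em_int`: `(1 + ‖x‖) ^ m ≤ ∏ k, (1 + |x k|) ^ m`,
`Integrable.fintype_prod`. `Em_mom`: `integral_fintype_prod_eq_prod` for `∏ k, x k ^ (e k)`, `em_pow`.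
`Em_ins`, `Em_ins_int`: `measurePreserving_piFinSuccAbove`, `integral_prod_symm`, `MeasurableEquiv.piFinSuccAbove_symm_apply`. -/

open MeasureTheory Set Matrix Real

noncomputable section

namespace Vale.Agent.P254L

variable {N n : ℕ}

theorem emn_norm_le (x : R N) : 1 + ‖x‖ ≤ ∏ k, (1 + |x k|) := by
  have h1 : ∀ s : Finset (Fin N), 1 ≤ ∏ k ∈ s, (1 + |x k|) := fun s =>
    Finset.one_le_prod fun k _ => by linarith [abs_nonneg (x k)]
  have : ‖x‖ ≤ ∏ k, (1 + |x k|) - 1 := by
    refine (pi_norm_le_iff_of_nonneg (by linarith [h1 Finset.univ])).2 fun i => ?_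
    rw [Real.norm_eq_abs, ← Finset.mul_prod_erase _ _ (Finset.mem_univ i)]
    have := h1 (Finset.univ.erase i)
    nlinarith [abs_nonneg (x i)]
  linarith

theorem Em_int {f : R N → ℝ} (hf : AEStronglyMeasurable f (Em N)) (hg : Gr f) :
    Integrable f (Em N) := by
  obtain ⟨C, m, hC⟩ := hg
  have h1 : Integrable (fun t : ℝ => (1 + |t|) ^ m) em := by
    refine em_int (by fun_prop : Continuous fun t : ℝ => (1 + |t|) ^ m).aestronglyMeasurable
      ⟨1, m, fun t => ?_⟩
    rw [abs_of_nonneg (by positivity), one_mul, Real.norm_eq_abs]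
  have h2 : Integrable (fun x : R N => ∏ k, (1 + |x k|) ^ m) (Em N) :=
    Integrable.fintype_prod (f := fun _ t => (1 + |t|) ^ m) (μ := fun _ : Fin N => em) fun _ => h1
  refine (h2.const_mul |C|).mono' hf (Filter.Eventually.of_forall fun x => ?_)
  rw [Real.norm_eq_abs, Finset.prod_pow]
  refine (hC x).trans ?_
  calc C * (1 + ‖x‖) ^ m ≤ |C| * (1 + ‖x‖) ^ m :=
        mul_le_mul_of_nonneg_right (le_abs_self C) (by positivity)
    _ ≤ |C| * (∏ k, (1 + |x k|)) ^ m :=
        mul_le_mul_of_nonneg_left (pow_le_pow_left₀ (by positivity) (emn_norm_le x) m)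
          (abs_nonneg C)

theorem Em_mom (i j : Fin N) : ∫ x, x i * x j ∂Em N = if i = j then 2 else 1 := by
  have h1 : ∀ x : R N, x i * x j =
      ∏ k, x k ^ ((if k = i then 1 else 0) + (if k = j then 1 else 0)) := by
    intro x
    simp only [pow_add, Finset.prod_mul_distrib]
    simp [pow_ite, Finset.prod_ite_eq']
  simp_rw [h1]
  unfold Em
  rw [integral_fintype_prod_eq_prod
    (fun (k : Fin N) (t : ℝ) => t ^ ((if k = i then 1 else 0) + (if k = j then 1 else 0)))]
  simp_rw [em_pow]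
  split_ifs with h
  · subst h
    rw [Finset.prod_eq_single i]
    · simp
    · intro b _ hb
      simp [hb]
    · simp
  · refine Finset.prod_eq_one fun k _ => ?_
    by_cases hi : k = i
    · subst hi
      simp [h]
    · by_cases hj : k = j
      · subst hj
        simp [hi]
      · simp [hi, hj]

theorem emn_mp (i : Fin (n + 1)) :
    MeasurePreserving (MeasurableEquiv.piFinSuccAbove (fun _ : Fin (n + 1) => ℝ) i).symm
      (em.prod (Em n)) (Em (n + 1)) :=
  (measurePreserving_piFinSuccAbove (fun _ : Fin (n + 1) => em) i).symm _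

theorem emn_int (i : Fin (n + 1)) {f : R (n + 1) → ℝ} (hf : Integrable f (Em (n + 1))) :
    Integrable (fun p : ℝ × R n => f (i.insertNth p.1 p.2)) (em.prod (Em n)) :=
  (emn_mp i).integrable_comp_of_integrable hf

/-- Fubini: the coordinate `i` is integrated first. -/
theorem Em_ins (i : Fin (n + 1)) {f : R (n + 1) → ℝ} (hf : Integrable f (Em (n + 1))) :
    ∫ x, f x ∂Em (n + 1) = ∫ z, ∫ t, f (i.insertNth t z) ∂em ∂Em n := by
  rw [← (emn_mp i).integral_comp' f]
  exact integral_prod_symm _ (emn_int i hf)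

theorem Em_ins_int (i : Fin (n + 1)) {f : R (n + 1) → ℝ} (hf : Integrable f (Em (n + 1))) :
    Integrable (fun p : ℝ × R n => f (i.insertNth p.1 p.2)) (em.prod (Em n)) :=
  emn_int i hf

end Vale.Agent.P254L
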