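import Vale.Agent.P254L.EmN

/-! Homogeneous functions. Hint: let `A = ∫ f`, `B = ∫ f * Σ`, `p = N + k`. For `l > 0`,
`φ l = ∫ x in O N, f x * exp (-l Σ x) = l⁻¹ ^ p * A` (`int_Em`, scaling `Measure.setIntegral_comp_smul_of_pos` or `integral_comp_smul` with indicators; the integrand is
integrable by the same scaling of `intOn_Em`), and `exp (-l s) ≥ exp (-s) (1 - (l - 1) s)` gives `φ l ≥ A - (l - 1) B`.
So `l ↦ l⁻¹ ^ p * A - A + (l - 1) B` has a local minimum at `1`; `IsLocalMin.hasDerivAt_eq_zero`. -/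

open MeasureTheory Set Matrix Real

noncomputable section

namespace Vale.Agent.P254L

variable {N : ℕ}

theorem hom_mem {l : ℝ} (hl : 0 < l) (x : R N) : l • x ∈ O N ↔ x ∈ O N :=
  forall_congr' fun k => by
    simp only [Pi.smul_apply, smul_eq_mul]
    exact mul_nonneg_iff_of_pos_left hl

theorem hom_le {f : R N → ℝ} {k : ℕ} (h0 : ∀ x ∈ O N, 0 ≤ f x) (h1 : Integrable f (Em N))
    (h2 : Integrable (fun x => f x * ∑ j, x j) (Em N))
    (hh : ∀ t : ℝ, 0 < t → ∀ x ∈ O N, f (t • x) = t ^ k * f x) {l : ℝ} (hl : 0 < l) :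
    l ^ (N + k) * (∫ x, f x ∂Em N - (l - 1) * ∫ x, f x * ∑ j, x j ∂Em N) ≤ ∫ x, f x ∂Em N := by
  have hm : MeasurableSet (O N) := (isClosed_O N).measurableSet
  have i1 := (integrable_indicator_iff hm).2 (intOn_Em h1)
  have i2 := (integrable_indicator_iff hm).2 (intOn_Em h2)
  rw [int_Em, int_Em, ← integral_indicator hm, ← integral_indicator hm]
  set G := (O N).indicator fun x => f x * exp (-∑ k, x k) with hG
  set G' := (O N).indicator fun x => (f x * ∑ j, x j) * exp (-∑ k, x k) with hG'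
  have e1 := Measure.integral_comp_smul_of_nonneg volume G l (hR := hl.le)
  rw [Module.finrank_fin_fun, smul_eq_mul] at e1
  have e2 : ∫ x, l ^ k * (G x - (l - 1) * G' x) ≤ ∫ x, G (l • x) := by
    refine integral_mono ((i1.sub (i2.const_mul _)).const_mul _) (i1.comp_smul hl.ne') fun x => ?_
    by_cases hx : x ∈ O N
    · have hs : ∑ j, (l • x) j = l * ∑ j, x j := by
        simp only [Pi.smul_apply, smul_eq_mul, Finset.mul_sum]
      simp only [hG, hG', indicator_of_mem hx, indicator_of_mem ((hom_mem hl x).2 hx), hs,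
        hh l hl x hx]
      have h3 : exp (-(l * ∑ j, x j)) = exp (-∑ j, x j) * exp (-((l - 1) * ∑ j, x j)) := by
        rw [← exp_add]
        congr 1
        ring
      have h4 := add_one_le_exp (-((l - 1) * ∑ j, x j))
      have h5 : 0 ≤ l ^ k * f x * exp (-∑ j, x j) :=
        mul_nonneg (mul_nonneg (pow_nonneg hl.le _) (h0 x hx)) (exp_nonneg _)
      rw [h3]
      nlinarith [mul_le_mul_of_nonneg_left h4 h5]
    · simp only [hG, hG', indicator_of_notMem hx,
        indicator_of_notMem (mt (hom_mem hl x).1 hx)]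
      simp
  rw [integral_const_mul, integral_sub i1 (i2.const_mul _), integral_const_mul, e1] at e2
  have hp : 0 < l ^ N := pow_pos hl N
  rw [le_inv_mul_iff₀ hp] at e2
  rw [pow_add, mul_assoc]
  exact e2

theorem homog {f : R N → ℝ} {k : ℕ} (h0 : ∀ x ∈ O N, 0 ≤ f x) (h1 : Integrable f (Em N))
    (h2 : Integrable (fun x => f x * ∑ j, x j) (Em N))
    (hh : ∀ t : ℝ, 0 < t → ∀ x ∈ O N, f (t • x) = t ^ k * f x) :
    ∫ x, f x * ∑ j, x j ∂Em N = (N + k) * ∫ x, f x ∂Em N := by
  have hle := fun l (hl : 0 < l) => hom_le h0 h1 h2 hh hl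
  generalize ∫ x, f x ∂Em N = A at hle ⊢
  generalize ∫ x, f x * ∑ j, x j ∂Em N = B at hle ⊢
  have hmax : IsLocalMax (fun l : ℝ => l ^ (N + k) * (A - (l - 1) * B)) 1 := by
    filter_upwards [lt_mem_nhds (zero_lt_one' ℝ)] with l hl
    simpa using hle l hl
  have hd : HasDerivAt (fun l : ℝ => l ^ (N + k) * (A - (l - 1) * B))
      (((N + k : ℕ) : ℝ) * 1 ^ (N + k - 1) * (A - (1 - 1) * B) + 1 ^ (N + k) * -(1 * B)) 1 :=
    (hasDerivAt_pow (N + k) (1 : ℝ)).mul
      ((((hasDerivAt_id (1 : ℝ)).sub_const 1).mul_const B).const_sub A)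
  have h := hmax.hasDerivAt_eq_zero hd
  push_cast at h
  simp only [one_pow, mul_one, one_mul, sub_self, zero_mul, sub_zero] at h
  linarith

end Vale.Agent.P254L
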