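import Vale.Agent.P254L.LagN
import Vale.Agent.P254L.Hom

/-! The first order gain on a facet. With `N = n + 1`, `s = ∑ z`, `q = ∑ z ^ 2`:
`E h q = ∑ j, E h lag (z j) + 4 E h s - 2 n E h = D + (2 N + 2) E h` (`homog` with `k = 1`), `D ≥ E h / (2 * 4 ^ n)` (`lagN`),
`E h q s ≤ E h s ^ 3 = N (N + 1) (N + 2) E h` (`homog` with `k = 1, 2, 3`; `q ≤ s ^ 2` on the orthant, `ae_Em`).
Take `c = 1 / (4 * 4 ^ n)`, `ε = c / (N ^ 2 (N + 1) (N + 2))`. Integrability: `Em_int`, `Gr.of_lip`, `Gr.mul`. -/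

open MeasureTheory Set Matrix Real

noncomputable section

namespace Vale.Agent.P254L

theorem facet_gr_add {X : Type} [NormedAddCommGroup X] {f g : X → ℝ} (hf : Gr f) (hg : Gr g) :
    Gr fun x => f x + g x := by
  obtain ⟨C, m, hC⟩ := hf
  obtain ⟨D, k, hD⟩ := hg
  refine ⟨|C| + |D|, m + k, fun x => ?_⟩
  have h1 : (1 : ℝ) ≤ 1 + ‖x‖ := by linarith [norm_nonneg x]
  have h2 : (1 + ‖x‖) ^ m ≤ (1 + ‖x‖) ^ (m + k) := pow_le_pow_right₀ h1 (by omega)
  have h3 : (1 + ‖x‖) ^ k ≤ (1 + ‖x‖) ^ (m + k) := pow_le_pow_right₀ h1 (by omega)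
  have h4 : C * (1 + ‖x‖) ^ m ≤ |C| * (1 + ‖x‖) ^ (m + k) :=
    mul_le_mul (le_abs_self C) h2 (by positivity) (abs_nonneg C)
  have h5 : D * (1 + ‖x‖) ^ k ≤ |D| * (1 + ‖x‖) ^ (m + k) :=
    mul_le_mul (le_abs_self D) h3 (by positivity) (abs_nonneg D)
  have h6 := abs_add_le (f x) (g x)
  have h7 := hC x
  have h8 := hD x
  rw [add_mul]
  linarith

theorem facet_gr_const {X : Type} [NormedAddCommGroup X] (c : ℝ) : Gr fun _ : X => c :=
  ⟨|c|, 0, fun x => by simp⟩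

theorem facet_gr_sum {X : Type} [NormedAddCommGroup X] {ι : Type} (s : Finset ι)
    {f : ι → X → ℝ} (hf : ∀ i, Gr (f i)) : Gr fun x => ∑ i ∈ s, f i x := by
  classical
  induction s using Finset.induction_on with
  | empty => simpa using facet_gr_const (X := X) 0
  | insert a s ha ih =>
    simp only [Finset.sum_insert ha]
    exact facet_gr_add (hf a) ih

theorem facet_gr_co {n : ℕ} (j : Fin n) : Gr fun z : R n => z j := by
  refine ⟨1, 1, fun z => ?_⟩
  have := norm_le_pi_norm z j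
  rw [Real.norm_eq_abs] at this
  linarith

theorem facet_gr_s (n : ℕ) : Gr fun z : R n => ∑ j, z j :=
  facet_gr_sum _ fun j => facet_gr_co j

theorem facet_gr_sq {n : ℕ} (j : Fin n) : Gr fun z : R n => z j ^ 2 := by
  have := (facet_gr_co j).mul (facet_gr_co j)
  simpa only [sq] using this

theorem facet_gr_q (n : ℕ) : Gr fun z : R n => ∑ j, z j ^ 2 :=
  facet_gr_sum _ fun j => facet_gr_sq j

theorem facet_int {n : ℕ} {f : R n → ℝ} (hc : Continuous f) (hg : Gr f) : Integrable f (Em n) :=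
  Em_int hc.aestronglyMeasurable hg

theorem facet (n : ℕ) : ∃ ε c : ℝ, 0 < ε ∧ 0 < c ∧ ∀ (h : R n → ℝ) (L : NNReal),
    ConvexOn ℝ univ h → LipschitzWith L h → (∀ t : ℝ, 0 < t → ∀ z, h (t • z) = t * h z) →
    (∀ z ∈ O n, 0 ≤ h z) → h 1 ≤ 0 →
    c * ∫ z, h z ∂Em n ≤ ∫ z, h z * ((∑ j, z j ^ 2) * (1 - (n + 1) * ε * ∑ j, z j)
      - (2 * (n + 1) + 2)) ∂Em n := by
  have hN : (0 : ℝ) < n + 1 := by positivity
  refine ⟨(1 / (4 * 4 ^ n)) / ((n + 1) ^ 2 * (n + 2) * (n + 3)), 1 / (4 * 4 ^ n), by positivity,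
    by positivity, fun h L hc hl hh h0 h1 => ?_⟩
  set c : ℝ := 1 / (4 * 4 ^ n) with hcdef
  set ε : ℝ := c / ((n + 1) ^ 2 * (n + 2) * (n + 3)) with hε
  have hεpos : 0 < ε := by positivity
  have hcont : Continuous h := hl.continuous
  have gh : Gr h := Gr.of_lip hl
  have cs : Continuous fun z : R n => ∑ j, z j := by fun_prop
  have cq : Continuous fun z : R n => ∑ j, z j ^ 2 := by fun_prop
  have gs := facet_gr_s n
  have gq := facet_gr_q n
  have i0 : Integrable h (Em n) := facet_int hcont gh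
  have i1 : Integrable (fun z => h z * ∑ j, z j) (Em n) := facet_int (hcont.mul cs) (gh.mul gs)
  have i2 : Integrable (fun z => (h z * ∑ j, z j) * ∑ j, z j) (Em n) :=
    facet_int ((hcont.mul cs).mul cs) ((gh.mul gs).mul gs)
  have i3 : Integrable (fun z => ((h z * ∑ j, z j) * ∑ j, z j) * ∑ j, z j) (Em n) :=
    facet_int (((hcont.mul cs).mul cs).mul cs) (((gh.mul gs).mul gs).mul gs)
  have iq : Integrable (fun z => h z * ∑ j, z j ^ 2) (Em n) := facet_int (hcont.mul cq) (gh.mul gq)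
  have iqs : Integrable (fun z => (h z * ∑ j, z j ^ 2) * ∑ j, z j) (Em n) :=
    facet_int ((hcont.mul cq).mul cs) ((gh.mul gq).mul gs)
  have il : ∀ j : Fin n, Integrable (fun z => h z * lag (z j)) (Em n) := by
    intro j
    have e : (fun z : R n => h z * lag (z j))
        = fun z => h z * (z j ^ 2 + ((-4) * z j + 2)) := by
      funext z
      simp only [lag]
      ring
    rw [e]
    refine facet_int (by fun_prop) (gh.mul (facet_gr_add (facet_gr_sq j)
      (facet_gr_add ((facet_gr_const (-4)).mul (facet_gr_co j)) (facet_gr_const 2))))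
  have s0 : ∀ z ∈ O n, 0 ≤ ∑ j, z j := fun z hz => Finset.sum_nonneg fun j _ => hz j
  have ssm : ∀ (t : ℝ) (z : R n), ∑ j, (t • z) j = t * ∑ j, z j := by
    intro t z
    simp [Finset.mul_sum]
  have e1 : ∫ z, h z * ∑ j, z j ∂Em n = (n + (1 : ℕ)) * ∫ z, h z ∂Em n :=
    homog h0 i0 i1 fun t ht x _ => by rw [hh t ht, pow_one]
  have e2 : ∫ z, (h z * ∑ j, z j) * ∑ j, z j ∂Em n
      = (n + (2 : ℕ)) * ∫ z, h z * ∑ j, z j ∂Em n :=
    homog (f := fun z => h z * ∑ j, z j) (fun x hx => mul_nonneg (h0 x hx) (s0 x hx)) i1 i2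
      fun t ht x _ => by
        rw [hh t ht, ssm]
        ring
  have e3 : ∫ z, ((h z * ∑ j, z j) * ∑ j, z j) * ∑ j, z j ∂Em n
      = (n + (3 : ℕ)) * ∫ z, (h z * ∑ j, z j) * ∑ j, z j ∂Em n :=
    homog (f := fun z => (h z * ∑ j, z j) * ∑ j, z j)
      (fun x hx => mul_nonneg (mul_nonneg (h0 x hx) (s0 x hx)) (s0 x hx)) i2 i3
      fun t ht x _ => by
        rw [hh t ht, ssm]
        ring
  have hle : ∫ z, (h z * ∑ j, z j ^ 2) * ∑ j, z j ∂Em n
      ≤ ∫ z, ((h z * ∑ j, z j) * ∑ j, z j) * ∑ j, z j ∂Em n := by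
    refine integral_mono_ae iqs i3 ?_
    filter_upwards [ae_Em (N := n)] with z hz
    have hzO : z ∈ O n := fun k => (hz k).le
    have hq : ∑ j, z j ^ 2 ≤ (∑ j, z j) ^ 2 :=
      Finset.sum_sq_le_sq_sum_of_nonneg fun j _ => (hz j).le
    have := mul_le_mul_of_nonneg_left hq (mul_nonneg (h0 z hzO) (s0 z hzO))
    nlinarith [this]
  have eD : ∑ j, ∫ z, h z * lag (z j) ∂Em n
      = ∫ z, h z * ∑ j, z j ^ 2 ∂Em n - 4 * ∫ z, h z * ∑ j, z j ∂Em n
        + 2 * n * ∫ z, h z ∂Em n := by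
    have ia : Integrable (fun z => h z * ∑ j, z j ^ 2 - 4 * (h z * ∑ j, z j)) (Em n) :=
      iq.sub (i1.const_mul 4)
    rw [← integral_finsetSum _ fun j _ => il j, ← integral_const_mul, ← integral_const_mul,
      ← integral_sub iq (i1.const_mul 4), ← integral_add ia (i0.const_mul _)]
    congr 1
    funext z
    simp only [lag, ← Finset.mul_sum, Finset.sum_add_distrib, Finset.sum_sub_distrib,
      Finset.sum_const, Finset.card_univ, Fintype.card_fin, nsmul_eq_mul]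
    ring
  have eI : ∫ z, h z * ((∑ j, z j ^ 2) * (1 - (n + 1) * ε * ∑ j, z j)
      - (2 * (n + 1) + 2)) ∂Em n
      = ∫ z, h z * ∑ j, z j ^ 2 ∂Em n
        - (n + 1) * ε * ∫ z, (h z * ∑ j, z j ^ 2) * ∑ j, z j ∂Em n
        - (2 * (n + 1) + 2) * ∫ z, h z ∂Em n := by
    have ia : Integrable (fun z => h z * ∑ j, z j ^ 2
        - (n + 1) * ε * ((h z * ∑ j, z j ^ 2) * ∑ j, z j)) (Em n) := iq.sub (iqs.const_mul _)
    rw [← integral_const_mul, ← integral_const_mul,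
      ← integral_sub iq (iqs.const_mul _), ← integral_sub ia (i0.const_mul _)]
    congr 1
    funext z
    ring
  have hD := lagN hc hl h1
  rw [eI]
  rw [eD] at hD
  rw [e3, e2] at hle
  rw [e1] at hle hD
  push_cast at hle hD
  set A := ∫ z, h z ∂Em n
  set Q := ∫ z, h z * ∑ j, z j ^ 2 ∂Em n
  set T := ∫ z, (h z * ∑ j, z j ^ 2) * ∑ j, z j ∂Em n
  have h4 : (0 : ℝ) < 4 ^ n := by positivity
  have k1 : 2 * c * A ≤ Q - 4 * ((n + 1) * A) + 2 * n * A := by
    have : 2 * c * A = A / (2 * 4 ^ n) := by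
      rw [hcdef]
      field_simp
      ring
    rw [this, div_le_iff₀ (by positivity)]
    linarith
  have k2 : (n + 1) * ε * T ≤ c * A := by
    have h5 := mul_le_mul_of_nonneg_left hle (mul_nonneg hN.le hεpos.le)
    have h6 : (n + 1) * ε * ((n + 3) * ((n + 2) * ((n + 1) * A))) = c * A := by
      rw [hε]
      field_simp
    linarith
  linarith

end Vale.Agent.P254L
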