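import Vale.Agent.P254L.ConeA

/-! Simplices and matrices. `mt v` has the columns `hc (v k)`. `mt_det`: a kernel vector `w` has `∑ w = 0`, `∑ w k • v k = 0`
(`affineIndependent_iff`, `Matrix.exists_mulVec_eq_zero_iff`). `cone_hull`: `mem_convexHull_iff_exists_fintype` / `convexHull_range_eq_exists_affineCombination`,
for `w ∈ O` with `∑ w = 0` the image is `0 = 0 • hc (v 0)`. `cone_dil`: the barycentric coordinates of the dilated point are `(1 + ε) w k - ε / (n+1) ≥ -ε`.
`eq_hull`: `v k = toLp fun i => Q i.succ k`, `mt v = Q`; `x ∈ K ↔ hc x ∈ cone K`. `vol_pos`: `interior_convexHull_nonempty_iff_affineSpan_eq_top`,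
`AffineIndependent.affineSpan_eq_top_iff_card_eq_finrank_add_one`. -/

open MeasureTheory Set Matrix Real

noncomputable section

namespace Vale.Agent.P254L
variable {n : ℕ} {K : Set (EuclideanSpace ℝ (Fin n))} {v : Fin (n + 1) → EuclideanSpace ℝ (Fin n)}

/-- the matrix of the vertices -/
def mt (v : Fin (n + 1) → EuclideanSpace ℝ (Fin n)) : Matrix (Fin (n + 1)) (Fin (n + 1)) ℝ :=
  Matrix.of fun i k => hc (v k) i

theorem geoa_mul (v : Fin (n + 1) → EuclideanSpace ℝ (Fin n)) (w : Fin (n + 1) → ℝ) :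
    mt v *ᵥ w = Fin.cons (∑ k, w k) fun i => (∑ k, w k • v k) i := by
  funext i
  refine Fin.cases ?_ (fun i => ?_) i
  · simp [mt, hc, mulVec, dotProduct]
  · simp [mt, hc, mulVec, dotProduct, mul_comm]

theorem geoa_mem (v : Fin (n + 1) → EuclideanSpace ℝ (Fin n)) (x : EuclideanSpace ℝ (Fin n)) :
    x ∈ convexHull ℝ (range v) ↔
      ∃ w : Fin (n + 1) → ℝ, (∀ k, 0 ≤ w k) ∧ ∑ k, w k = 1 ∧ ∑ k, w k • v k = x := by
  constructor
  · intro hx
    refine convexHull_min (t := {x | ∃ w : Fin (n + 1) → ℝ, (∀ k, 0 ≤ w k) ∧ ∑ k, w k = 1 ∧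
      ∑ k, w k • v k = x}) ?_ ?_ hx
    · rintro _ ⟨k, rfl⟩
      refine ⟨Pi.single k 1, fun j => ?_, by simp, by simp [Pi.single_apply, ite_smul]⟩
      rw [Pi.single_apply]
      split_ifs <;> norm_num
    · rintro _ ⟨w, h1, h2, rfl⟩ _ ⟨w', h1', h2', rfl⟩ a b ha hb hab
      refine ⟨fun k => a * w k + b * w' k,
        fun k => add_nonneg (mul_nonneg ha (h1 k)) (mul_nonneg hb (h1' k)), ?_, ?_⟩
      · rw [Finset.sum_add_distrib, ← Finset.mul_sum, ← Finset.mul_sum, h2, h2', mul_one, mul_one,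
          hab]
      · simp only [add_smul, mul_smul, Finset.sum_add_distrib, Finset.smul_sum]
  · rintro ⟨w, h1, h2, rfl⟩
    exact (convex_convexHull ℝ _).sum_mem (fun i _ => h1 i) h2
      fun i _ => subset_convexHull ℝ _ ⟨i, rfl⟩

theorem mt_det (hv : AffineIndependent ℝ v) : (mt v).det ≠ 0 := by
  intro h
  obtain ⟨w, hw, h0⟩ := Matrix.exists_mulVec_eq_zero_iff.2 h
  rw [geoa_mul] at h0
  have h1 : ∑ k, w k = 0 := congrFun h0 0
  have h2 : ∑ k, w k • v k = 0 := by
    ext i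
    exact congrFun h0 i.succ
  exact hw (funext fun k => affineIndependent_iff.1 hv Finset.univ w h1 h2 k (Finset.mem_univ k))

theorem mt_row (v : Fin (n + 1) → EuclideanSpace ℝ (Fin n)) : Pi.single 0 1 ᵥ* mt v = 1 := by
  funext k
  simp [mt, hc]

theorem cone_hull (v : Fin (n + 1) → EuclideanSpace ℝ (Fin n)) :
    cone (convexHull ℝ (range v)) = (fun x => mt v *ᵥ x) '' O (n + 1) := by
  have key : ∀ (s : ℝ) (w : Fin (n + 1) → ℝ), ∑ k, w k = 1 →
      mt v *ᵥ (s • w) = s • hc (∑ k, w k • v k) := fun s w hw => by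
    rw [mulVec_smul, geoa_mul, hw]
    rfl
  ext X
  constructor
  · rintro ⟨s, hs, x, hx, rfl⟩
    obtain ⟨w, h1, h2, rfl⟩ := (geoa_mem v x).1 hx
    exact ⟨s • w, fun k => mul_nonneg hs (h1 k), key s w h2⟩
  · rintro ⟨w, hw, rfl⟩
    have h0 : 0 ≤ ∑ k, w k := Finset.sum_nonneg fun k _ => hw k
    rcases h0.eq_or_lt with h | h
    · have h1 : w = 0 := funext fun k =>
        (Finset.sum_eq_zero_iff_of_nonneg fun k _ => hw k).1 h.symm k (Finset.mem_univ k)
      exact ⟨0, le_rfl, v 0, subset_convexHull ℝ _ ⟨0, rfl⟩, by simp [h1]⟩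
    · have h2 : ∑ k, ((∑ j, w j)⁻¹ • w) k = 1 := by
        simp only [Pi.smul_apply, smul_eq_mul]
        rw [← Finset.mul_sum, inv_mul_cancel₀ h.ne']
      refine ⟨∑ j, w j, h0, _, (geoa_mem v _).2
        ⟨(∑ j, w j)⁻¹ • w, fun k => mul_nonneg (inv_nonneg.2 h0) (hw k), h2, rfl⟩, ?_⟩
      rw [← key _ _ h2, smul_smul, mul_inv_cancel₀ h.ne', one_smul]

theorem vol_pos (hv : AffineIndependent ℝ v) (hK : IsCompact K)
    (h : convexHull ℝ (range v) ⊆ K) : 0 < volume.real K := by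
  have h1 : (interior (convexHull ℝ (range v))).Nonempty :=
    interior_convexHull_nonempty_iff_affineSpan_eq_top.2
      (hv.affineSpan_eq_top_iff_card_eq_finrank_add_one.2 (by simp))
  exact ENNReal.toReal_pos
    (Measure.measure_pos_of_nonempty_interior volume (h1.mono (interior_mono h))).ne'
    hK.measure_lt_top.ne


end Vale.Agent.P254L
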