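import Vale.Agent.P254L.ConeA
import Vale.Agent.P254L.GeoA

/-! Simplices and matrices. `mt v` has the columns `hc (v k)`. `mt_det`: a kernel vector `w` has `∑ w = 0`, `∑ w k • v k = 0`
(`affineIndependent_iff`, `Matrix.exists_mulVec_eq_zero_iff`). `cone_hull`: `mem_convexHull_iff_exists_fintype` / `convexHull_range_eq_exists_affineCombination`,
for `w ∈ O` with `∑ w = 0` the image is `0 = 0 • hc (v 0)`. `cone_dil`: the barycentric coordinates of the dilated point are `(1 + ε) w k - ε / (n+1) ≥ -ε`.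
`eq_hull`: `v k = toLp fun i => Q i.succ k`, `mt v = Q`; `x ∈ K ↔ hc x ∈ cone K`. `vol_pos`: `interior_convexHull_nonempty_iff_affineSpan_eq_top`,
`AffineIndependent.affineSpan_eq_top_iff_card_eq_finrank_add_one`. -/

open MeasureTheory Set Matrix Real

noncomputable section

namespace Vale.Agent.P254L

variable {n : ℕ} {K : Set (EuclideanSpace ℝ (Fin n))} {v : Fin (n + 1) → EuclideanSpace ℝ (Fin n)}

theorem geo_mem (x : EuclideanSpace ℝ (Fin n)) : x ∈ K ↔ hc x ∈ cone K := by
  constructor
  · intro hx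
    exact ⟨1, zero_le_one, x, hx, (one_smul _ _).symm⟩
  · rintro ⟨s, -, y, hy, e⟩
    have h0 := congrFun e 0
    simp only [hc, Fin.cons_zero, Pi.smul_apply, smul_eq_mul, mul_one] at h0
    subst h0
    rw [one_smul] at e
    have : x = y := by
      ext i
      have := congrFun e i.succ
      simpa only [hc, Fin.cons_succ] using this
    rw [this]
    exact hy

theorem geo_zero (v : Fin (n + 1) → EuclideanSpace ℝ (Fin n)) (w : R (n + 1)) :
    (mt v *ᵥ w) 0 = ∑ k, w k := by
  simp [mt, hc, Matrix.mulVec, dotProduct]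

theorem geo_succ (v : Fin (n + 1) → EuclideanSpace ℝ (Fin n)) (w : R (n + 1)) (i : Fin n) :
    (mt v *ᵥ w) i.succ = (∑ k, w k • v k) i := by
  simp [mt, hc, Matrix.mulVec, dotProduct, mul_comm]

theorem geo_cen (v : Fin (n + 1) → EuclideanSpace ℝ (Fin n)) :
    Finset.univ.centroid ℝ v = ∑ k, ((n : ℝ) + 1)⁻¹ • v k := by
  rw [Finset.centroid_def, Finset.affineCombination_eq_linear_combination]
  · simp
  · simp only [Finset.centroidWeights_apply, Finset.card_univ, Fintype.card_fin, Finset.sum_const,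
      nsmul_eq_mul]
    exact mul_inv_cancel₀ (by positivity)

theorem cone_dil {ε : ℝ} (h0 : 0 < ε) (hK : K ⊆ AffineMap.homothety (Finset.univ.centroid ℝ v)
    (1 + ε) '' convexHull ℝ (range v)) : cone K ⊆ (fun x => mt v *ᵥ x) '' Oe (n + 1) (-ε) := by
  rintro X ⟨s, hs, x, hx, rfl⟩
  obtain ⟨y, hy, rfl⟩ := hK hx
  have h1 := (geo_mem (K := convexHull ℝ (range v)) y).1 hy
  rw [cone_hull] at h1
  obtain ⟨w, hw, e⟩ := h1
  have e0 : ∑ k, w k = 1 := by
    have := congrFun e 0
    simp only [geo_zero] at this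
    simpa [hc] using this
  have hn : (0 : ℝ) < (n : ℝ) + 1 := by positivity
  have hsum : ∑ k : Fin (n + 1), s * ((1 + ε) * w k - ε * ((n : ℝ) + 1)⁻¹) = s := by
    rw [← Finset.mul_sum, Finset.sum_sub_distrib, ← Finset.mul_sum, e0]
    simp only [Finset.sum_const, Finset.card_univ, Fintype.card_fin, nsmul_eq_mul]
    push_cast
    field_simp
    ring
  refine ⟨fun k => s * ((1 + ε) * w k - ε * ((n : ℝ) + 1)⁻¹), fun k => ?_, ?_⟩
  · simp only
    rw [hsum]
    have a1 : ((n : ℝ) + 1)⁻¹ ≤ 1 := inv_le_one_of_one_le₀ (by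
      have : (0 : ℝ) ≤ n := Nat.cast_nonneg n
      linarith)
    have a2 : 0 ≤ (1 + ε) * w k := mul_nonneg (by linarith) (hw k)
    have a3 : ε * ((n : ℝ) + 1)⁻¹ ≤ ε := by nlinarith
    nlinarith
  · funext i
    refine Fin.cases ?_ (fun i => ?_) i
    · simp only [geo_zero]
      rw [hsum]
      simp [hc]
    · have e1 := congrFun e i.succ
      simp only [geo_succ] at e1
      simp only [geo_succ]
      simp only [hc, Fin.cons_succ, Pi.smul_apply, smul_eq_mul] at e1 ⊢
      rw [AffineMap.homothety_apply, geo_cen]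
      simp only [vsub_eq_sub, vadd_eq_add, PiLp.add_apply, PiLp.smul_apply, PiLp.sub_apply,
        smul_eq_mul, WithLp.ofLp_sum, Finset.sum_apply, WithLp.ofLp_smul, Pi.smul_apply] at e1 ⊢
      rw [← e1]
      simp only [Finset.mul_sum, mul_sub, mul_add, ← Finset.sum_sub_distrib, ← Finset.sum_add_distrib]
      exact Finset.sum_congr rfl fun k _ => by ring

theorem eq_hull {Q : Matrix (Fin (n + 1)) (Fin (n + 1)) ℝ} (hQ : Q.det ≠ 0)
    (hy : Pi.single 0 1 ᵥ* Q = 1) (h : cone K = (fun x => Q *ᵥ x) '' O (n + 1)) :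
    ∃ w : Fin (n + 1) → EuclideanSpace ℝ (Fin n), AffineIndependent ℝ w ∧
      K = convexHull ℝ (range w) := by
  have hm : mt (fun k => WithLp.toLp 2 fun i : Fin n => Q i.succ k) = Q := by
    ext i k
    refine Fin.cases ?_ (fun i => ?_) i
    · have := congrFun hy k
      simp only [Matrix.single_one_vecMul, Matrix.row, Pi.one_apply] at this
      simp [mt, hc, this]
    · simp [mt, hc]
  refine ⟨fun k => WithLp.toLp 2 fun i : Fin n => Q i.succ k, ?_, ?_⟩
  · rw [affineIndependent_iff_of_fintype]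
    intro w h0 h1
    rw [Finset.weightedVSub_eq_linear_combination _ h0] at h1
    have : Q *ᵥ w = 0 := by
      rw [← hm]
      funext i
      refine Fin.cases ?_ (fun i => ?_) i
      · rw [geo_zero, h0]
        rfl
      · rw [geo_succ, h1]
        rfl
    exact congrFun (Matrix.eq_zero_of_mulVec_eq_zero hQ this)
  · ext x
    rw [geo_mem x, geo_mem (K := convexHull ℝ _) x, cone_hull, hm, h]

end Vale.Agent.P254L
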