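import Vale.Agent.P254L.Em1

/-! Convex functions against the second Laguerre polynomial, one variable.
Hints: `lag1_b`: Jensen `ConvexOn.map_integral_le` with `∫ x = 1` (`em_pow 1`), or a supporting line.
`lag1_a`: `lag x - 1 = x ^ 2 - 4 x + 1 = (x - p) (x - q)`, `p = 2 - √3 < 1 < q = 2 + √3`. Let
`m x = g 1 + a * max (x - 1) 0 + b * max (1 - x) 0`, `a = (g q - g 1) / (q - 1)`, `b = (g p - g 1) / (1 - p)`.
Pointwise `0 ≤ (g x - m x) * (lag x - 1)` for every `x` (four ranges; `ConvexOn.slope_mono_adjacent`, `secant_mono`).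
`∫ (lag - 1) = -1`, `∫ max (x - 1) 0 * (lag x - 1) = 0` (antiderivative on `Ioi 1`:
`(x-1)(x^2-4x+1) e^{-x} = d/dx (-(x^3 - 2x^2 + x) e^{-x})`, `integral_Ioi_of_hasDerivAt_of_tendsto`),
`max (1 - x) 0 = max (x - 1) 0 - (x - 1)` and `∫ (x - 1) (lag x - 1) = 0` by `em_pow`. -/

open MeasureTheory Set Matrix Real

noncomputable section

namespace Vale.Agent.P254L

theorem Gr.of_lip {X : Type} [NormedAddCommGroup X] {g : X → ℝ} {L : NNReal}
    (h : LipschitzWith L g) : Gr g := by
  refine ⟨|g 0| + L, 1, fun x => ?_⟩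
  have h1 := h.dist_le_mul x 0
  rw [Real.dist_eq, dist_zero_right] at h1
  have h2 := abs_sub_abs_le_abs_sub (g x) (g 0)
  have h3 := mul_nonneg (abs_nonneg (g 0)) (norm_nonneg x)
  have h4 := L.coe_nonneg
  rw [pow_one]
  nlinarith

theorem Gr.mul {X : Type} [NormedAddCommGroup X] {f g : X → ℝ} (hf : Gr f) (hg : Gr g) :
    Gr fun x => f x * g x := by
  obtain ⟨C, m, hf⟩ := hf
  obtain ⟨D, k, hg⟩ := hg
  refine ⟨C * D, m + k, fun x => ?_⟩
  rw [abs_mul, pow_add, mul_mul_mul_comm]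
  exact mul_le_mul (hf x) (hg x) (abs_nonneg _) ((abs_nonneg _).trans (hf x))

theorem gr_lag : Gr lag := by
  refine ⟨2, 2, fun x => ?_⟩
  have h1 := le_abs_self x
  have h2 := neg_abs_le x
  have h3 := sq_abs x
  have h4 := sq_nonneg x
  rw [Real.norm_eq_abs, lag, abs_le]
  constructor <;> nlinarith

theorem lag1_cont : Continuous lag := by
  unfold lag
  fun_prop

theorem lag1_i {g : ℝ → ℝ} {L : NNReal} (hl : LipschitzWith L g) : Integrable g em :=
  em_int hl.continuous.aestronglyMeasurable (Gr.of_lip hl)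

theorem lag1_i2 {g : ℝ → ℝ} {L : NNReal} (hl : LipschitzWith L g) :
    Integrable (fun x => g x * lag x) em :=
  em_int (hl.continuous.mul lag1_cont).aestronglyMeasurable ((Gr.of_lip hl).mul gr_lag)

theorem lag1_j {g : ℝ → ℝ} {L : NNReal} (hl : LipschitzWith L g) :
    Integrable (fun x => g x * (lag x - 1)) em := by
  simp only [mul_sub, mul_one]
  exact (lag1_i2 hl).sub (lag1_i hl)

theorem lag1_pw (k : ℕ) : Integrable (fun x : ℝ => x ^ k) em := by
  refine em_int (continuous_pow k).aestronglyMeasurable ⟨1, k, fun x => ?_⟩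
  rw [abs_pow, one_mul, Real.norm_eq_abs]
  exact pow_le_pow_left₀ (abs_nonneg x) (by linarith) k

theorem lag1_poly (a b c d : ℝ) :
    ∫ x, a * x ^ 3 + b * x ^ 2 + c * x ^ 1 + d * x ^ 0 ∂em = 6 * a + 2 * b + c + d := by
  have i3 := (lag1_pw 3).const_mul a
  have i2 := (lag1_pw 2).const_mul b
  have i1 := (lag1_pw 1).const_mul c
  have i0 := (lag1_pw 0).const_mul d
  have i4 : Integrable (fun x : ℝ => a * x ^ 3 + b * x ^ 2) em := i3.add i2
  have i5 : Integrable (fun x : ℝ => a * x ^ 3 + b * x ^ 2 + c * x ^ 1) em := i4.add i1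
  rw [integral_add i5 i0, integral_add i4 i1, integral_add i3 i2]
  simp only [integral_const_mul, em_pow]
  norm_num [Nat.factorial]
  ring

theorem lag1_max : ∫ x, max (1 - x) 0 * (lag x - 1) ∂em = 0 := by
  rw [int_em, setIntegral_eq_of_subset_of_forall_sdiff_eq_zero (s := Ioc 0 1) measurableSet_Ioi
    Ioc_subset_Ioi_self, setIntegral_congr_fun
      (g := fun x => (1 - x) * (x ^ 2 - 4 * x + 1) * exp (-x)) measurableSet_Ioc,
    ← intervalIntegral.integral_of_le zero_le_one,
    intervalIntegral.integral_eq_sub_of_hasDerivAt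
      (f := fun x => (x ^ 3 - 2 * x ^ 2 + x) * exp (-x))]
  · norm_num
  · intro x _
    have h1 := (((hasDerivAt_pow 3 x).sub ((hasDerivAt_pow 2 x).const_mul 2)).add
      (hasDerivAt_id x)).mul (hasDerivAt_neg x).exp
    refine h1.congr_deriv ?_
    simp only [Pi.add_apply, Pi.sub_apply, id]
    norm_num
    ring
  · exact Continuous.intervalIntegrable (by fun_prop) _ _
  · intro x hx
    simp only [lag]
    rw [max_eq_left (by linarith [hx.2])]
    ring
  · intro x hx
    have : 1 < x := not_le.1 fun h => hx.2 ⟨hx.1, h⟩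
    rw [max_eq_right (by linarith), zero_mul, zero_mul]

theorem lag1_sec {g : ℝ → ℝ} (hc : ConvexOn ℝ univ g) {x v : ℝ} (hx : x ≠ 1) (hv : v ≠ 1) :
    0 ≤ ((g x - g 1) / (x - 1) - (g v - g 1) / (v - 1)) * (x - v) := by
  rcases le_total x v with h | h
  · exact mul_nonneg_of_nonpos_of_nonpos
      (sub_nonpos.2 (hc.secant_mono trivial trivial trivial hx hv h)) (sub_nonpos.2 h)
  · exact mul_nonneg (sub_nonneg.2 (hc.secant_mono trivial trivial trivial hv hx h))
      (sub_nonneg.2 h)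

theorem lag1_pt {g : ℝ → ℝ} (hc : ConvexOn ℝ univ g) : ∃ a c : ℝ, ∀ x,
    0 ≤ g x * (lag x - 1) - g 1 * (1 * (lag x - 1)) - a * ((x - 1) * (lag x - 1)) -
      c * (max (1 - x) 0 * (lag x - 1)) := by
  obtain ⟨p, q, hp, hq, h⟩ : ∃ p q : ℝ, p < 1 ∧ 1 < q ∧ ∀ x, lag x - 1 = (x - p) * (x - q) := by
    have h1 := Real.sq_sqrt (show (0 : ℝ) ≤ 3 by norm_num)
    have h2 := Real.sqrt_nonneg 3
    refine ⟨2 - √3, 2 + √3, by nlinarith, by linarith, fun x => ?_⟩
    rw [lag]
    linear_combination h1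
  refine ⟨(g q - g 1) / (q - 1), (g q - g 1) / (q - 1) - (g p - g 1) / (p - 1), fun x => ?_⟩
  rw [h]
  rcases lt_trichotomy x 1 with h1 | rfl | h1
  · have e : g x = g 1 + (g x - g 1) / (x - 1) * (x - 1) := by
      rw [div_mul_cancel₀ _ (sub_ne_zero.2 h1.ne)]
      ring
    have h2 := mul_nonneg (lag1_sec hc h1.ne hp.ne)
      (mul_nonneg_of_nonpos_of_nonpos (sub_nonpos.2 h1.le) (sub_nonpos.2 (h1.trans hq).le))
    rw [max_eq_left (by linarith)]
    generalize (g x - g 1) / (x - 1) = s at e h2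
    rw [e]
    refine h2.trans_eq ?_
    ring
  · simp
  · have e : g x = g 1 + (g x - g 1) / (x - 1) * (x - 1) := by
      rw [div_mul_cancel₀ _ (sub_ne_zero.2 h1.ne')]
      ring
    have h2 := mul_nonneg (lag1_sec hc h1.ne' hq.ne')
      (mul_nonneg (sub_nonneg.2 h1.le) (sub_nonneg.2 (hp.trans h1).le))
    rw [max_eq_right (by linarith)]
    generalize (g x - g 1) / (x - 1) = s at e h2
    rw [e]
    refine h2.trans_eq ?_
    ring

theorem lag1_b {g : ℝ → ℝ} {L : NNReal} (hc : ConvexOn ℝ univ g) (hl : LipschitzWith L g) :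
    g 1 ≤ ∫ x, g x ∂em := by
  have h := hc.map_integral_le (μ := em) (f := fun x => x) hl.continuous.continuousOn isClosed_univ
    (Filter.Eventually.of_forall fun _ => trivial) (lag1_i LipschitzWith.id) (lag1_i hl)
  have e : ∫ x, x ∂em = 1 := by simpa using em_pow 1
  rwa [e] at h

theorem lag1_a {g : ℝ → ℝ} {L : NNReal} (hc : ConvexOn ℝ univ g) (hl : LipschitzWith L g) :
    ∫ x, g x ∂em - g 1 ≤ ∫ x, g x * lag x ∂em := by
  obtain ⟨a, c, h⟩ := lag1_pt hc
  have h0 : 0 ≤ ∫ x, g x * (lag x - 1) - g 1 * (1 * (lag x - 1)) - a * ((x - 1) * (lag x - 1)) -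
      c * (max (1 - x) 0 * (lag x - 1)) ∂em := integral_nonneg h
  have i1 := lag1_j hl
  have i2 := (lag1_j (LipschitzWith.const' (α := ℝ) (1 : ℝ) (K := 0))).const_mul (g 1)
  have i3 := (lag1_j (g := fun x => x - 1)
    (LipschitzWith.id.sub (LipschitzWith.const' (1 : ℝ) (K := 0)))).const_mul a
  have i4 := (lag1_j (g := fun x => max (1 - x) 0)
    (((LipschitzWith.const' (1 : ℝ) (K := 0)).sub LipschitzWith.id).max_const 0)).const_mul c
  have i5 : Integrable (fun x => g x * (lag x - 1) - g 1 * (1 * (lag x - 1))) em := i1.sub i2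
  have i6 : Integrable (fun x => g x * (lag x - 1) - g 1 * (1 * (lag x - 1)) -
    a * ((x - 1) * (lag x - 1))) em := i5.sub i3
  have e1 : ∫ x, 1 * (lag x - 1) ∂em = -1 := by
    have := lag1_poly 0 1 (-4) 1
    norm_num at this
    rw [← this]
    refine integral_congr_ae (Filter.Eventually.of_forall fun x => ?_)
    simp only [lag]
    ring
  have e2 : ∫ x, (x - 1) * (lag x - 1) ∂em = 0 := by
    have := lag1_poly 1 (-5) 5 (-1)
    norm_num at this
    rw [← this]
    refine integral_congr_ae (Filter.Eventually.of_forall fun x => ?_)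
    simp only [lag]
    ring
  have e3 : ∫ x, g x * (lag x - 1) ∂em = ∫ x, g x * lag x ∂em - ∫ x, g x ∂em := by
    simp only [mul_sub, mul_one]
    exact integral_sub (lag1_i2 hl) (lag1_i hl)
  rw [integral_sub i6 i4, integral_sub i5 i3, integral_sub i1 i2, integral_const_mul (g 1),
    integral_const_mul a, integral_const_mul c, e1, e2, e3, lag1_max] at h0
  linarith

end Vale.Agent.P254L
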