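import Vale.Agent.P254L.EmN

/-! Convex functions against Laguerre polynomials, several variables.
`lagN_nn`: `Em_ins j`, `lag1_a`, `lag1_b` for `t ↦ ψ (j.insertNth t z)` (convex, Lipschitz with the same constant).
`lagN_half`: induction on `n`. With `y = (1 + x) / 2` and `ψ (cons t z)`:
`E ψ(x₀,x') - E ψ(y₀,x') ≤ E ψ lag x₀` (for fixed `x'`: `lag1_a`, and `lag1_b` for `t ↦ g ((1 + t) / 2)`);
for fixed `t`, `E ψ(t,x') - E ψ(t,y') ≤ 4 ^ n * G t`, `G t = ∑ j, E ψ(t,x') lag (x' j) ≥ 0` (induction, `lagN_nn`), then `em_half`.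
Fubini in both orders from `Em_ins_int 0` (`integral_prod`, `integral_prod_symm`, `Fin.insertNth_zero'`), `Fin.sum_univ_succ`.
`lagN`: `ψ ((1 + x) / 2) ≤ ψ x / 2`. -/

open MeasureTheory Set Matrix Real

noncomputable section

namespace Vale.Agent.P254L

variable {n : ℕ}

theorem lagn_lip {X Y : Type} [PseudoMetricSpace X] [PseudoMetricSpace Y] {ψ : Y → ℝ} {L : NNReal}
    (hl : LipschitzWith L ψ) {φ : X → Y} (hd : ∀ x y, dist (φ x) (φ y) ≤ dist x y) :
    LipschitzWith L fun x => ψ (φ x) :=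
  LipschitzWith.of_dist_le_mul fun x y =>
    (hl.dist_le_mul _ _).trans (mul_le_mul_of_nonneg_left (hd x y) L.2)

theorem lagn_cvx {X Y : Type} [AddCommGroup X] [Module ℝ X] [AddCommGroup Y] [Module ℝ Y]
    {ψ : Y → ℝ} (hc : ConvexOn ℝ univ ψ) {φ : X → Y}
    (ha : ∀ x y : X, ∀ a b : ℝ, a + b = 1 → φ (a • x + b • y) = a • φ x + b • φ y) :
    ConvexOn ℝ univ fun x => ψ (φ x) :=
  ⟨convex_univ, fun x _ y _ a b h0 h1 hab => by
    have := hc.2 (mem_univ (φ x)) (mem_univ (φ y)) h0 h1 hab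
    simpa only [ha x y a b hab] using this⟩

theorem lagn_int1 {ψ : R n → ℝ} {L : NNReal} (hl : LipschitzWith L ψ) : Integrable ψ (Em n) :=
  Em_int hl.continuous.aestronglyMeasurable (Gr.of_lip hl)

theorem lagn_int2 {ψ : R n → ℝ} {L : NNReal} (hl : LipschitzWith L ψ) (j : Fin n) :
    Integrable (fun x => ψ x * lag (x j)) (Em n) := by
  refine Em_int ?_ (Gr.mul (Gr.of_lip hl) ?_)
  · refine Continuous.aestronglyMeasurable (hl.continuous.mul ?_)
    unfold lag
    fun_prop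
  · obtain ⟨C, m, h⟩ := gr_lag
    have hC : 0 ≤ C := by
      have := (abs_nonneg _).trans (h 0)
      simpa using this
    refine ⟨C, m, fun x => (h (x j)).trans (mul_le_mul_of_nonneg_left ?_ hC)⟩
    have := norm_le_pi_norm x j
    gcongr

theorem lagn_fubA (i : Fin (n + 1)) {f : R (n + 1) → ℝ} (hf : Integrable f (Em (n + 1))) :
    Integrable (fun z : R n => ∫ t, f (i.insertNth t z) ∂em) (Em n) :=
  (Em_ins_int i hf).integral_prod_right

theorem lagn_fubB (i : Fin (n + 1)) {f : R (n + 1) → ℝ} (hf : Integrable f (Em (n + 1))) :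
    Integrable (fun t : ℝ => ∫ z, f (i.insertNth t z) ∂Em n) em :=
  (Em_ins_int i hf).integral_prod_left

theorem lagn_fubC (i : Fin (n + 1)) {f : R (n + 1) → ℝ} (hf : Integrable f (Em (n + 1))) :
    ∫ x, f x ∂Em (n + 1) = ∫ t, ∫ z, f (i.insertNth t z) ∂Em n ∂em := by
  rw [Em_ins i hf]
  exact (integral_integral_swap (f := fun (t : ℝ) (z : R n) => f (i.insertNth t z))
    (Em_ins_int i hf)).symm

theorem lagn_slA {ψ : R (n + 1) → ℝ} {L : NNReal} (hc : ConvexOn ℝ univ ψ)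
    (hl : LipschitzWith L ψ) (i : Fin (n + 1)) (z : R n) :
    (ConvexOn ℝ univ fun t : ℝ => ψ (i.insertNth t z)) ∧
      LipschitzWith L fun t : ℝ => ψ (i.insertNth t z) := by
  refine ⟨lagn_cvx hc fun x y a b hab => ?_, lagn_lip hl fun x y => ?_⟩
  · funext k
    refine Fin.succAboveCases i ?_ (fun k => ?_) k
    · simp
    · simp only [Fin.insertNth_apply_succAbove, Pi.add_apply, Pi.smul_apply, smul_eq_mul]
      linear_combination (-z k) * hab
  · rw [Fin.dist_insertNth_insertNth]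
    simp

theorem lagn_slB {ψ : R (n + 1) → ℝ} {L : NNReal} (hc : ConvexOn ℝ univ ψ)
    (hl : LipschitzWith L ψ) (i : Fin (n + 1)) (t : ℝ) :
    (ConvexOn ℝ univ fun z : R n => ψ (i.insertNth t z)) ∧
      LipschitzWith L fun z : R n => ψ (i.insertNth t z) := by
  refine ⟨lagn_cvx hc fun x y a b hab => ?_, lagn_lip hl fun x y => ?_⟩
  · funext k
    refine Fin.succAboveCases i ?_ (fun k => ?_) k
    · simp only [Fin.insertNth_apply_same, Pi.add_apply, Pi.smul_apply, smul_eq_mul]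
      linear_combination (-t) * hab
    · simp
  · rw [Fin.dist_insertNth_insertNth]
    simp

theorem lagn_hd (x y : ℝ) : dist ((1 + x) / 2) ((1 + y) / 2) ≤ dist x y := by
  rw [Real.dist_eq, Real.dist_eq, show (1 + x) / 2 - (1 + y) / 2 = (x - y) / 2 by ring, abs_div,
    abs_two]
  linarith [abs_nonneg (x - y)]

theorem lagn_one {g : ℝ → ℝ} {L : NNReal} (hc : ConvexOn ℝ univ g) (hl : LipschitzWith L g) :
    ∫ x, g x ∂em - ∫ x, g ((1 + x) / 2) ∂em ≤ ∫ x, g x * lag x ∂em := by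
  have h1 := lag1_a hc hl
  have h2 := lag1_b (g := fun x => g ((1 + x) / 2)) (lagn_cvx hc fun x y a b hab => by
    simp only [smul_eq_mul]
    linear_combination (-1 / 2) * hab) (lagn_lip hl lagn_hd)
  norm_num at h2
  linarith

theorem lagn_lipH {ψ : R n → ℝ} {L : NNReal} (hl : LipschitzWith L ψ) :
    LipschitzWith L fun x : R n => ψ fun j => (1 + x j) / 2 :=
  lagn_lip hl fun x y => (dist_pi_le_iff dist_nonneg).2 fun j =>
    (lagn_hd _ _).trans (dist_le_pi_dist x y j)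

theorem lagn_lipB {ψ : R n → ℝ} {L : NNReal} (hl : LipschitzWith L ψ) (i : Fin n) :
    LipschitzWith L fun x : R n => ψ (Function.update x i ((1 + x i) / 2)) :=
  lagn_lip hl fun x y => (dist_pi_le_iff dist_nonneg).2 fun j => by
    by_cases h : j = i
    · subst h
      simpa using (lagn_hd _ _).trans (dist_le_pi_dist x y j)
    · simpa [Function.update_of_ne h] using dist_le_pi_dist x y j

theorem lagN_nn {ψ : R n → ℝ} {L : NNReal} (hc : ConvexOn ℝ univ ψ) (hl : LipschitzWith L ψ)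
    (j : Fin n) : 0 ≤ ∫ x, ψ x * lag (x j) ∂Em n := by
  cases n with
  | zero => exact j.elim0
  | succ n =>
    rw [Em_ins j (lagn_int2 hl j)]
    refine integral_nonneg fun z => ?_
    obtain ⟨h1, h2⟩ := lagn_slA hc hl j z
    have h3 := lag1_a h1 h2
    have h4 := lag1_b h1 h2
    simp only [Fin.insertNth_apply_same, Pi.zero_apply]
    linarith

theorem lagn_eH (i : Fin (n + 1)) (t : ℝ) (z : R n) :
    (fun j => (1 + (i.insertNth t z : R (n + 1)) j) / 2) =
      (i.insertNth ((1 + t) / 2) (fun j => (1 + z j) / 2) : R (n + 1)) := by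
  funext k
  refine Fin.succAboveCases i ?_ (fun k => ?_) k
  · simp
  · simp

theorem lagn_s1 {ψ : R (n + 1) → ℝ} {L : NNReal} (hc : ConvexOn ℝ univ ψ)
    (hl : LipschitzWith L ψ) (i : Fin (n + 1)) :
    ∫ x, ψ x ∂Em (n + 1) - ∫ x, ψ (Function.update x i ((1 + x i) / 2)) ∂Em (n + 1) ≤
      ∫ x, ψ x * lag (x i) ∂Em (n + 1) := by
  have hB := lagn_lipB hl i
  rw [Em_ins i (lagn_int1 hl), Em_ins i (lagn_int1 hB), Em_ins i (lagn_int2 hl i),
    ← integral_sub (lagn_fubA i (lagn_int1 hl)) (lagn_fubA i (lagn_int1 hB))]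
  refine integral_mono ((lagn_fubA i (lagn_int1 hl)).sub (lagn_fubA i (lagn_int1 hB)))
    (lagn_fubA i (lagn_int2 hl i)) fun z => ?_
  obtain ⟨h1, h2⟩ := lagn_slA hc hl i z
  simpa only [Fin.update_insertNth, Fin.insertNth_apply_same] using lagn_one h1 h2

theorem lagn_G {ψ : R (n + 1) → ℝ} {L : NNReal} (hl : LipschitzWith L ψ) (i : Fin (n + 1))
    (j : Fin n) : Integrable (fun t : ℝ => ∫ z, ψ (i.insertNth t z) * lag (z j) ∂Em n) em := by
  simpa only [Fin.insertNth_apply_succAbove] using lagn_fubB i (lagn_int2 hl (i.succAbove j))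

theorem lagn_s2 {ψ : R (n + 1) → ℝ} {L : NNReal} (hl : LipschitzWith L ψ) (i : Fin (n + 1))
    (ih : ∀ t : ℝ, ∫ z, ψ (i.insertNth t z) ∂Em n -
      ∫ z, ψ (i.insertNth t fun j => (1 + z j) / 2) ∂Em n ≤
      4 ^ n * ∑ j, ∫ z, ψ (i.insertNth t z) * lag (z j) ∂Em n) :
    ∫ x, ψ (Function.update x i ((1 + x i) / 2)) ∂Em (n + 1) -
      ∫ x, ψ (fun j => (1 + x j) / 2) ∂Em (n + 1) ≤
      4 ^ n * ∫ t, ∑ j, ∫ z, ψ (i.insertNth ((1 + t) / 2) z) * lag (z j) ∂Em n ∂em := by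
  have hB := lagn_lipB hl i
  have hH := lagn_lipH hl
  have hG : Integrable
      (fun t : ℝ => ∑ j, ∫ z, ψ (i.insertNth ((1 + t) / 2) z) * lag (z j) ∂Em n) em :=
    integrable_finsetSum _ fun j _ => by
      simpa only [Fin.update_insertNth, Fin.insertNth_apply_same] using lagn_G hB i j
  have a1 := lagn_fubB i (lagn_int1 hB)
  have a2 := lagn_fubB i (lagn_int1 hH)
  rw [lagn_fubC i (lagn_int1 hB), lagn_fubC i (lagn_int1 hH)]
  simp only [lagn_eH, Fin.update_insertNth, Fin.insertNth_apply_same] at a1 a2 ⊢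
  rw [← integral_sub a1 a2, ← integral_const_mul]
  exact integral_mono (a1.sub a2) (hG.const_mul _) fun t => ih ((1 + t) / 2)

theorem lagn_s4 {ψ : R (n + 1) → ℝ} {L : NNReal} (hl : LipschitzWith L ψ) (i : Fin (n + 1)) :
    ∫ t, ∑ j, ∫ z, ψ (i.insertNth t z) * lag (z j) ∂Em n ∂em =
      ∑ j, ∫ x, ψ x * lag (x (i.succAbove j)) ∂Em (n + 1) := by
  rw [integral_finsetSum _ fun j _ => lagn_G hl i j]
  refine Finset.sum_congr rfl fun j _ => ?_
  rw [lagn_fubC i (lagn_int2 hl (i.succAbove j))]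
  simp only [Fin.insertNth_apply_succAbove]

theorem lagN_half {ψ : R n → ℝ} {L : NNReal} (hc : ConvexOn ℝ univ ψ) (hl : LipschitzWith L ψ) :
    ∫ x, ψ x ∂Em n - ∫ x, ψ (fun j => (1 + x j) / 2) ∂Em n
      ≤ 4 ^ n * ∑ j, ∫ x, ψ x * lag (x j) ∂Em n := by
  induction n with
  | zero =>
    have : (fun x : R 0 => ψ fun j => (1 + x j) / 2) = ψ := by
      funext x
      exact congrArg ψ (Subsingleton.elim _ _)
    simp [this]
  | succ n ih =>
    have s1 := lagn_s1 hc hl 0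
    have s2 := lagn_s2 hl 0 fun t => ih (lagn_slB hc hl 0 t).1 (lagn_slB hc hl 0 t).2
    have s3 := em_half
      (G := fun t : ℝ => ∑ j, ∫ z, ψ ((0 : Fin (n + 1)).insertNth t z) * lag (z j) ∂Em n)
      (fun t _ => Finset.sum_nonneg fun j _ =>
        lagN_nn (lagn_slB hc hl 0 t).1 (lagn_slB hc hl 0 t).2 j)
      (integrable_finsetSum _ fun j _ => lagn_G hl 0 j)
    rw [Fin.sum_univ_succAbove _ 0, ← lagn_s4 hl 0]
    have s5 := lagN_nn hc hl 0
    have s6 : (1 : ℝ) ≤ 4 ^ n := one_le_pow₀ (by norm_num)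
    have s7 := mul_le_mul_of_nonneg_left s3 (zero_le_one.trans s6)
    have s8 := mul_le_mul_of_nonneg_right s6 s5
    rw [pow_succ]
    linarith

theorem lagN {ψ : R n → ℝ} {L : NNReal} (hc : ConvexOn ℝ univ ψ) (hl : LipschitzWith L ψ)
    (h1 : ψ 1 ≤ 0) : ∫ x, ψ x ∂Em n ≤ 2 * 4 ^ n * ∑ j, ∫ x, ψ x * lag (x j) ∂Em n := by
  have h2 := lagN_half hc hl
  have h3 : ∫ x, ψ (fun j => (1 + x j) / 2) ∂Em n ≤ ∫ x, (1 / 2) * ψ x ∂Em n := by
    refine integral_mono (lagn_int1 (lagn_lipH hl)) ((lagn_int1 hl).const_mul _) fun x => ?_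
    have h4 := hc.2 (mem_univ (1 : R n)) (mem_univ x) (by norm_num : (0 : ℝ) ≤ 1 / 2)
      (by norm_num : (0 : ℝ) ≤ 1 / 2) (by norm_num)
    have h5 : (1 / 2 : ℝ) • (1 : R n) + (1 / 2 : ℝ) • x = fun j => (1 + x j) / 2 := by
      funext j
      simp only [Pi.add_apply, Pi.smul_apply, Pi.one_apply, smul_eq_mul]
      ring
    rw [h5] at h4
    simp only [smul_eq_mul] at h4
    show ψ (fun j => (1 + x j) / 2) ≤ 1 / 2 * ψ x
    linarith
  rw [integral_const_mul] at h3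
  linarith

end Vale.Agent.P254L
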