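import Vale.Agent.P254L.EmN

/-! Linear invariance. `∫ x in Q V, F x = |det Q| * ∫ x in V, F (Q *ᵥ x)` (`integral_image_eq_integral_abs_det_fderiv_smul` with
`LinearMap.toContinuousLinearMap (toLin' Q)`, `LinearMap.det_toLin'`; or `Real.map_matrix_volume_pi_eq_smul_volume_pi`), `dotProduct_mulVec`.
`mom (Q V) y = |det Q| • (Q * mom V 1 * Qᵀ)` (integrability: `intOn_Em`, `Em_int`), `det_smul`, `sq_abs`. -/

open MeasureTheory Set Matrix Real

noncomputable section

namespace Vale.Agent.P254L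

variable {N : ℕ}

theorem lin_int {V : Set (R N)} (hV : MeasurableSet V) {Q : Matrix (Fin N) (Fin N) ℝ}
    (hQ : Q.det ≠ 0) (F : R N → ℝ) :
    ∫ x in (fun x => Q *ᵥ x) '' V, F x = |Q.det| * ∫ x in V, F (Q *ᵥ x) := by
  have h := integral_image_eq_integral_abs_det_fderiv_smul volume hV
    (f := fun x => Q *ᵥ x) (f' := fun _ => LinearMap.toContinuousLinearMap (toLin' Q))
    (fun x _ => (LinearMap.toContinuousLinearMap (toLin' Q)).hasFDerivWithinAt)
    (mulVec_injective_iff_isUnit.2 ((isUnit_iff_isUnit_det Q).2 hQ.isUnit)).injOn F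
  rw [h, ← integral_const_mul]
  simp only [LinearMap.det_toContinuousLinearMap, LinearMap.det_toLin', smul_eq_mul]

theorem lin_on {V : Set (R N)} (hO : V ⊆ O N) (a b : Fin N) :
    IntegrableOn (fun x : R N => x a * x b * exp (-((1 : R N) ⬝ᵥ x))) V := by
  have h := intOn_Em (Em_int (f := fun x : R N => x a * x b) (by fun_prop)
    ((Gr.of_lip (LipschitzWith.eval a)).mul (Gr.of_lip (LipschitzWith.eval b))))
  simpa only [one_dotProduct] using h.mono_set hO

theorem lin_mom {V : Set (R N)} (hV : MeasurableSet V) (hO : V ⊆ O N)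
    {Q : Matrix (Fin N) (Fin N) ℝ} (hQ : Q.det ≠ 0) {y : R N} (hy : y ᵥ* Q = 1) :
    mom ((fun x => Q *ᵥ x) '' V) y = |Q.det| • (Q * mom V 1 * Qᵀ) := by
  ext i j
  have e : ∀ x : R N, (Q *ᵥ x) i * (Q *ᵥ x) j * exp (-(y ⬝ᵥ Q *ᵥ x)) =
      ∑ b, ∑ a, Q i a * (x a * x b * exp (-((1 : R N) ⬝ᵥ x))) * Q j b := fun x => by
    rw [dotProduct_mulVec, hy]
    generalize exp (-((1 : R N) ⬝ᵥ x)) = t
    simp only [mulVec, dotProduct, Finset.sum_mul, Finset.mul_sum]
    exact Finset.sum_congr rfl fun b _ => Finset.sum_congr rfl fun a _ => by ring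
  have hi := fun a b => ((lin_on hO a b).const_mul (Q i a)).mul_const (Q j b)
  simp only [mom, of_apply, Matrix.smul_apply, smul_eq_mul, Matrix.mul_apply, transpose_apply,
    Finset.sum_mul]
  rw [lin_int hV hQ]
  simp only [e]
  rw [integral_finsetSum _ fun b _ => integrable_finsetSum _ fun a _ => hi a b]
  refine congrArg _ (Finset.sum_congr rfl fun b _ => ?_)
  rw [integral_finsetSum _ fun a _ => hi a b]
  simp only [integral_mul_const, integral_const_mul]

theorem zz_lin {V : Set (R N)} (hV : MeasurableSet V) {Q : Matrix (Fin N) (Fin N) ℝ}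
    (hQ : Q.det ≠ 0) {y : R N} (hy : y ᵥ* Q = 1) :
    zz ((fun x => Q *ᵥ x) '' V) y = |Q.det| * zz V 1 := by
  simp only [zz, lin_int hV hQ, dotProduct_mulVec, hy]

theorem iv_lin {V : Set (R N)} (hV : MeasurableSet V) (hO : V ⊆ O N)
    {Q : Matrix (Fin N) (Fin N) ℝ} (hQ : Q.det ≠ 0) {y : R N} (hy : y ᵥ* Q = 1) :
    iv ((fun x => Q *ᵥ x) '' V) y = iv V 1 := by
  have h0 : |Q.det| ^ (N + 2) ≠ 0 := pow_ne_zero _ (abs_ne_zero.2 hQ)
  rw [iv, iv, zz_lin hV hQ hy, lin_mom hV hO hQ hy, det_smul, det_mul, det_mul, det_transpose,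
    Fintype.card_fin, mul_pow, ← mul_div_mul_left (mom V 1).det _ h0]
  congr 1
  rw [pow_add, sq_abs]
  ring

theorem Cn.map {V : Set (R N)} (hV : Cn V) {Q : Matrix (Fin N) (Fin N) ℝ} (hQ : Q.det ≠ 0) :
    Cn ((fun x => Q *ᵥ x) '' V) := by
  refine ⟨?_, hV.cv.linear_image (toLin' Q), ?_⟩
  · exact ((toLinearEquiv' Q (invertibleOfIsUnitDet Q hQ.isUnit)).toContinuousLinearEquiv
      ).toHomeomorph.isClosedMap V hV.cl
  · rintro t ht _ ⟨x, hx, rfl⟩
    exact ⟨t • x, hV.sm t ht x hx, mulVec_smul Q t x⟩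

end Vale.Agent.P254L
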