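import Vale.Agent.P254L.Defs

/-! The minimal circumscribed simplicial cone. Maximise `det` over the compact set of matrices `P` with column sums `1` and
`P *ᵥ x ∈ O` for `x ∈ V` (entries are in `[0,1]` since `Pi.single k 1 ∈ O ⊆ V`; `IsCompact.exists_isMaxOn`, `isCompact_univ_pi`).
It contains `P₀ = (1 + N ε)⁻¹ • (1 + ε • of 1)`, `det P₀ = (1 + N ε) / (1 + N ε) ^ N` (`det_one_add_replicateCol_mul_replicateRow`).
Last claim: if `u = 1 - single i 1 ∉ P V` (closed convex cone) then `geometric_hahn_banach_point_closed` gives `a` with `a ⬝ᵥ y ≥ 0` on `P V`,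
`∑ k ≠ i, a k < 0`. For small `t > 0` let `T` = diagonal `(1 - t a k)` plus `t a` added to row `i`; `T * P` is admissible
(column sums of `T` are `1`), `det T = ∏ k ≠ i, (1 - t a k)` (`T i i = 1`; all other rows are diagonal) has derivative `-∑ k ≠ i, a k > 0` at `0`: contradiction. -/

open MeasureTheory Set Matrix Real

noncomputable section

namespace Vale.Agent.P254L

/-- a small positive parameter increasing the product -/
theorem maxd_small {N : ℕ} (a b : Fin N → ℝ) (hb : ∑ k, b k < 0) :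
    ∃ t : ℝ, 0 < t ∧ (∀ k, t * a k ≤ 1) ∧ 1 < ∏ k, (1 - t * b k) := by
  have h1 : HasDerivAt (fun t : ℝ => ∏ k, (1 - t * b k))
      (∑ k, (∏ j ∈ Finset.univ.erase k, (1 - (0 : ℝ) * b j)) • (-b k)) 0 :=
    HasDerivAt.fun_finsetProd (f := fun k (t : ℝ) => 1 - t * b k) (f' := fun k => -b k)
      fun k _ => by simpa using ((hasDerivAt_id (0 : ℝ)).mul_const (b k)).const_sub 1
  have h2 : (∑ k, (∏ j ∈ Finset.univ.erase k, (1 - (0 : ℝ) * b j)) • (-b k)) = -∑ k, b k := by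
    simp
  rw [h2] at h1
  have h3 := h1.tendsto_slope_zero_right.eventually (lt_mem_nhds (neg_pos.2 hb))
  have h4 : ∀ᶠ t in nhdsWithin (0 : ℝ) (Ioi 0), ∀ k, t * a k ≤ 1 := by
    refine Filter.eventually_all.2 fun k => nhdsWithin_le_nhds ?_
    have h5 : ContinuousAt (fun t : ℝ => t * a k) 0 := by fun_prop
    exact h5.eventually (ge_mem_nhds (by simp))
  obtain ⟨t, ⟨ht1, ht2⟩, ht3⟩ := ((h3.and h4).and self_mem_nhdsWithin).exists
  have ht : 0 < t := ht3
  refine ⟨t, ht, ht2, ?_⟩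
  simp only [zero_add, zero_mul, sub_zero, Finset.prod_const_one, smul_eq_mul] at ht1
  have h6 := (mul_pos_iff_of_pos_left (inv_pos.2 ht)).1 ht1
  linarith

/-- the perturbation -/
def maxd_T {N : ℕ} (a : Fin N → ℝ) (i : Fin N) (t : ℝ) : Matrix (Fin N) (Fin N) ℝ :=
  Matrix.of fun j k => (if j = k then 1 - t * a k else 0) + (if j = i then t * a k else 0)

theorem maxd_col {N : ℕ} (a : Fin N → ℝ) (i : Fin N) (t : ℝ) (k : Fin N) :
    ∑ j, maxd_T a i t j k = 1 := by
  simp [maxd_T, Finset.sum_add_distrib]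

theorem maxd_vec {N : ℕ} (a : Fin N → ℝ) (i : Fin N) (t : ℝ) (y : Fin N → ℝ) (j : Fin N) :
    (maxd_T a i t *ᵥ y) j = (1 - t * a j) * y j + if j = i then t * ∑ k, a k * y k else 0 := by
  by_cases h : j = i
  · simp [maxd_T, Matrix.mulVec, dotProduct, add_mul, Finset.sum_add_distrib, ite_mul, h,
      Finset.mul_sum, mul_assoc]
  · simp [maxd_T, Matrix.mulVec, dotProduct, ite_mul, h]

theorem maxd_det {N : ℕ} (a : Fin N → ℝ) (i : Fin N) (t : ℝ) :
    (maxd_T a i t).det = ∏ k, (1 - t * (if k = i then 0 else a k)) := by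
  have h1 : maxd_T a i t = Matrix.diagonal (fun k => 1 - t * (if k = i then 0 else a k)) *
      (1 : Matrix (Fin N) (Fin N) ℝ).updateRow i
        (∑ k, (if k = i then 1 else t * a k) • (1 : Matrix (Fin N) (Fin N) ℝ) k) := by
    ext j k
    have h2 : (∑ k, (if k = i then 1 else t * a k) • (1 : Matrix (Fin N) (Fin N) ℝ) k) k =
        if k = i then 1 else t * a k := by
      simp only [Finset.sum_apply, Pi.smul_apply, Matrix.one_apply, smul_eq_mul, mul_ite, mul_one,
        mul_zero, Finset.sum_ite_eq', Finset.mem_univ, if_true]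
    rw [Matrix.diagonal_mul, Matrix.updateRow_apply, h2]
    by_cases h : j = i
    · subst h
      by_cases h' : j = k
      · subst h'
        simp [maxd_T]
      · simp [maxd_T, h', Ne.symm h']
    · by_cases h' : j = k
      · subst h'
        simp [maxd_T, h]
      · simp [maxd_T, h, h']
  rw [h1, Matrix.det_mul, Matrix.det_updateRow_sum, Matrix.det_diagonal]
  simp

/-- a nonnegative functional separating a point from a closed convex cone -/
theorem maxd_sep {N : ℕ} {W : Set (R N)} (hW : Cn W) (h0 : (0 : R N) ∈ W) {u : R N}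
    (hu : u ∉ W) : ∃ a : R N, (∀ y ∈ W, 0 ≤ ∑ k, a k * y k) ∧ ∑ k, a k * u k < 0 := by
  obtain ⟨f, c, h1, h2⟩ := geometric_hahn_banach_point_closed hW.cv hW.cl hu
  have hf : ∀ y : R N, f y = ∑ k, f (Pi.single k 1) * y k := fun y => by
    conv_lhs => rw [pi_eq_sum_univ' y]
    simp [map_sum, mul_comm]
  have hc : c < 0 := by simpa using h2 0 h0
  refine ⟨fun k => f (Pi.single k 1), fun y hy => ?_, ?_⟩
  · rw [← hf]
    by_contra hn
    have hn' : f y < 0 := not_le.1 hn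
    have h3 := h2 _ (hW.sm (c / f y) (div_nonneg_of_nonpos hc.le hn'.le) y hy)
    rw [map_smul, smul_eq_mul, div_mul_cancel₀ _ hn'.ne] at h3
    exact lt_irrefl _ h3
  · rw [← hf]
    linarith

/-- the admissible matrices -/
def maxd_A {N : ℕ} (V : Set (R N)) : Set (Matrix (Fin N) (Fin N) ℝ) :=
  {P | (∀ k, ∑ i, P i k = 1) ∧ ∀ x ∈ V, P *ᵥ x ∈ O N}

theorem maxd_nonneg {N : ℕ} {V : Set (R N)} (hO : O N ⊆ V) {P : Matrix (Fin N) (Fin N) ℝ}
    (hP : P ∈ maxd_A V) (i k : Fin N) : 0 ≤ P i k := by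
  have h1 : (Pi.single k 1 : R N) ∈ O N := fun j => by
    by_cases h : j = k
    · subst h
      simp
    · simp [h]
  have h2 := hP.2 _ (hO h1) i
  simpa using h2

theorem maxd_compact {N : ℕ} {V : Set (R N)} (hO : O N ⊆ V) : IsCompact (maxd_A V) := by
  have h1 : IsCompact ((Icc (0 : ℝ) 1).matrix : Set (Matrix (Fin N) (Fin N) ℝ)) :=
    isCompact_Icc.matrix
  refine h1.of_isClosed_subset ?_ fun P hP => ?_
  · have h2 : maxd_A V = (⋂ k, {P : Matrix (Fin N) (Fin N) ℝ | ∑ i, P i k = 1}) ∩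
        ⋂ x ∈ V, (fun P : Matrix (Fin N) (Fin N) ℝ => P *ᵥ x) ⁻¹' O N := by
      ext P
      simp [maxd_A]
    rw [h2]
    refine (isClosed_iInter fun k => isClosed_eq (by fun_prop) continuous_const).inter
      (isClosed_biInter fun x _ => (isClosed_O N).preimage ?_)
    exact continuous_id.matrix_mulVec continuous_const
  · rw [Set.mem_matrix]
    intro i k
    refine ⟨maxd_nonneg hO hP i k, ?_⟩
    rw [← hP.1 k]
    exact Finset.single_le_sum (f := fun i => P i k) (fun j _ => maxd_nonneg hO hP j k)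
      (Finset.mem_univ i)

theorem maxd_start {N : ℕ} {V : Set (R N)} {ε : ℝ} (h0 : 0 < ε) (he : V ⊆ Oe N (-ε)) :
    ∃ P ∈ maxd_A V, P.det = (1 + N * ε) / (1 + N * ε) ^ N := by
  have hp : 0 < 1 + (N : ℝ) * ε := by positivity
  refine ⟨(1 + N * ε)⁻¹ • (1 + Matrix.replicateCol Unit (fun _ : Fin N => ε) *
    Matrix.replicateRow Unit (fun _ : Fin N => (1 : ℝ))), ⟨fun k => ?_, fun x hx i => ?_⟩, ?_⟩
  · simp only [Matrix.smul_apply, Matrix.add_apply, Matrix.mul_apply, Matrix.one_apply,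
      Matrix.replicateCol_apply, Matrix.replicateRow_apply, smul_eq_mul, ← Finset.mul_sum,
      Finset.sum_add_distrib]
    simp
    field_simp
  · have h1 := he hx i
    rw [Matrix.smul_mulVec, Matrix.add_mulVec, Matrix.one_mulVec]
    simp only [Pi.smul_apply, Pi.add_apply, smul_eq_mul]
    refine mul_nonneg (inv_pos.2 hp).le ?_
    have h2 : ((Matrix.replicateCol Unit (fun _ : Fin N => ε) *
        Matrix.replicateRow Unit (fun _ : Fin N => (1 : ℝ))) *ᵥ x) i = ε * ∑ j, x j := by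
      simp [Matrix.mulVec, dotProduct, Matrix.mul_apply, Finset.mul_sum]
    rw [h2]
    linarith
  · rw [Matrix.det_smul, Matrix.det_one_add_replicateCol_mul_replicateRow]
    simp [dotProduct, div_eq_mul_inv, mul_comm]

theorem exists_max {N : ℕ} {V : Set (R N)} {ε : ℝ} (hV : Cn V) (h0 : 0 < ε) (hO : O N ⊆ V)
    (he : V ⊆ Oe N (-ε)) : ∃ P : Matrix (Fin N) (Fin N) ℝ, (∀ i k, 0 ≤ P i k) ∧
      (∀ k, ∑ i, P i k = 1) ∧ (1 + N * ε) / (1 + N * ε) ^ N ≤ P.det ∧
      (∀ x ∈ V, P *ᵥ x ∈ O N) ∧ ∀ i, (1 - Pi.single i 1 : R N) ∈ (fun x => P *ᵥ x) '' V := by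
  obtain ⟨P₀, hP₀, hd₀⟩ := maxd_start h0 he
  obtain ⟨P, hP, hmax⟩ := (maxd_compact hO).exists_isMaxOn ⟨P₀, hP₀⟩
    (f := fun P : Matrix (Fin N) (Fin N) ℝ => P.det) (continuous_id.matrix_det).continuousOn
  have hle : (1 + N * ε) / (1 + N * ε) ^ N ≤ P.det := by
    rw [← hd₀]
    exact hmax hP₀
  have hpos : 0 < P.det := lt_of_lt_of_le (by positivity) hle
  have hu : IsUnit P.det := isUnit_iff_ne_zero.2 hpos.ne'
  refine ⟨P, maxd_nonneg hO hP, hP.1, hle, hP.2, fun i => ?_⟩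
  have hW : Cn ((fun y => P⁻¹ *ᵥ y) ⁻¹' V) := by
    refine ⟨hV.cl.preimage (continuous_const.matrix_mulVec continuous_id),
      hV.cv.linear_preimage (Matrix.mulVecLin P⁻¹), fun t ht y hy => ?_⟩
    show P⁻¹ *ᵥ (t • y) ∈ V
    rw [Matrix.mulVec_smul]
    exact hV.sm t ht _ hy
  have h0W : (0 : R N) ∈ (fun y => P⁻¹ *ᵥ y) ⁻¹' V := by
    show P⁻¹ *ᵥ 0 ∈ V
    rw [Matrix.mulVec_zero]
    exact hO fun k => le_rfl
  by_contra hn
  have hn' : (1 - Pi.single i 1 : R N) ∉ (fun y => P⁻¹ *ᵥ y) ⁻¹' V := fun h =>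
    hn ⟨_, h, by
      show P *ᵥ (P⁻¹ *ᵥ _) = _
      rw [Matrix.mulVec_mulVec, Matrix.mul_nonsing_inv _ hu, Matrix.one_mulVec]⟩
  obtain ⟨a, ha, hau⟩ := maxd_sep hW h0W hn'
  have hb : ∑ k, (if k = i then 0 else a k) < 0 := by
    refine lt_of_eq_of_lt (Finset.sum_congr rfl fun k _ => ?_) hau
    by_cases h : k = i
    · subst h
      simp
    · simp [h]
  obtain ⟨t, ht, ht1, ht2⟩ := maxd_small a _ hb
  have hT : maxd_T a i t * P ∈ maxd_A V := by
    refine ⟨fun k => ?_, fun x hx j => ?_⟩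
    · simp only [Matrix.mul_apply]
      rw [Finset.sum_comm]
      simp only [← Finset.sum_mul, maxd_col, one_mul]
      exact hP.1 k
    · rw [← Matrix.mulVec_mulVec, maxd_vec]
      have h1 : 0 ≤ (P *ᵥ x) j := hP.2 x hx j
      have h2 : 0 ≤ ∑ k, a k * (P *ᵥ x) k := ha _ (by
        show P⁻¹ *ᵥ (P *ᵥ x) ∈ V
        rw [Matrix.mulVec_mulVec, Matrix.nonsing_inv_mul _ hu, Matrix.one_mulVec]
        exact hx)
      refine add_nonneg (mul_nonneg (sub_nonneg.2 (ht1 j)) h1) ?_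
      split_ifs
      · exact mul_nonneg ht.le h2
      · exact le_rfl
  have h3 : (maxd_T a i t * P).det ≤ P.det := hmax hT
  rw [Matrix.det_mul, maxd_det] at h3
  nlinarith

end Vale.Agent.P254L
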