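import Vale.Agent.P254L.Defs

/-! Column stochastic matrices of determinant close to one are close to permutation matrices.
(1) `|det A| ≤ ∏ k, ∑ i, |A i k|` (`det_apply`, `Finset.prod_univ_sum`, permutations inject into functions).
(2) every column `k` has an entry `≥ 1 - δ`: if all entries of column `k` are `≤ m` then `det ≤ ∑ σ, ∏ ≤ m`
(a permutation is determined by its values off `k`; or Laplace expansion). Call it `σ k`.
(3) `σ` is injective: otherwise subtract one column from the other (`det_updateCol_add_smul_self`), the new column has `ℓ¹` norm `≤ 2 δ < 1 - δ`.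
(4) for `x = P w ∈ Oe η`: `|x (σ k) - w k| ≤ δ ‖w‖₁` and `Σ x = Σ w`, `∑ |x| ≥ (1 - 2δ) ‖w‖₁`; `x ≥ 0` since `Σ x ≥ 0` (`η N < 1`).
A soft compactness proof is also fine. -/

open MeasureTheory Set Matrix Real

noncomputable section

namespace Vale.Agent.P254L

theorem stab_inj {N : ℕ} (k : Fin N) :
    Function.Injective fun σ : Equiv.Perm (Fin N) => Function.update σ k k := by
  intro σ τ h
  have h1 : ∀ j, j ≠ k → σ j = τ j := fun j hj => by
    simpa [Function.update_of_ne hj] using congrFun h j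
  ext1 j
  by_cases hj : j = k
  · subst hj
    by_contra h2
    have h3 : τ.symm (σ j) ≠ j := fun e => h2 (by rw [← τ.apply_symm_apply (σ j), e])
    exact h3 (σ.injective (by rw [h1 _ h3, τ.apply_symm_apply]))
  · exact h1 j hj

theorem stab_key {N : ℕ} (P : Matrix (Fin N) (Fin N) ℝ) (h0 : ∀ i k, 0 ≤ P i k)
    (h1 : ∀ k, ∑ i, P i k = 1) (k : Fin N) (v : Fin N → ℝ) (m : ℝ) (hv : ∀ i, |v i| ≤ m) :
    (P.updateCol k v).det ≤ m := by
  set G : Matrix (Fin N) (Fin N) ℝ := P.updateCol k (Pi.single k 1) with hG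
  have hm : 0 ≤ m := (abs_nonneg _).trans (hv k)
  have g0 : ∀ i j, 0 ≤ G i j := fun i j => by
    rw [hG, updateCol_apply]
    split_ifs
    · rw [Pi.single_apply]
      split_ifs <;> norm_num
    · exact h0 i j
  have g1 : ∑ f : Fin N → Fin N, ∏ j, G (f j) j = 1 := by
    rw [← Fintype.piFinset_univ, ← Finset.prod_univ_sum (fun _ => Finset.univ) fun j i => G i j]
    refine Finset.prod_eq_one fun j _ => ?_
    by_cases hj : j = k
    · simp [hG, hj]
    · simp [hG, updateCol_apply, hj, h1]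
  have g2 : ∑ σ : Equiv.Perm (Fin N), ∏ j, G (Function.update σ k k j) j ≤ 1 := by
    rw [← g1, ← Finset.sum_image (f := fun f : Fin N → Fin N => ∏ j, G (f j) j)
      (stab_inj k).injOn]
    exact Finset.sum_le_sum_of_subset_of_nonneg (Finset.subset_univ _) fun f _ _ =>
      Finset.prod_nonneg fun j _ => g0 _ _
  rw [det_apply]
  refine le_trans (Finset.sum_le_sum fun σ _ => ?_)
    ((Finset.mul_sum _ _ m).symm.trans_le (mul_le_of_le_one_right hm g2))
  have e1 : ∏ j, P.updateCol k v (σ j) j = v (σ k) * ∏ j ∈ Finset.univ.erase k, P (σ j) j := by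
    rw [← Finset.mul_prod_erase _ _ (Finset.mem_univ k), updateCol_self]
    congr 1
    exact Finset.prod_congr rfl fun j hj => updateCol_ne (Finset.mem_erase.1 hj).1
  have e2 : ∏ j, G (Function.update σ k k j) j = ∏ j ∈ Finset.univ.erase k, P (σ j) j := by
    rw [← Finset.mul_prod_erase _ _ (Finset.mem_univ k), hG, updateCol_self, Function.update_self,
      Pi.single_eq_same, one_mul]
    exact Finset.prod_congr rfl fun j hj => by
      rw [updateCol_ne (Finset.mem_erase.1 hj).1, Function.update_of_ne (Finset.mem_erase.1 hj).1]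
  have e3 : 0 ≤ ∏ j ∈ Finset.univ.erase k, P (σ j) j := Finset.prod_nonneg fun j _ => h0 _ _
  have e4 := abs_le.1 (hv (σ k))
  rw [e1, e2]
  rcases Int.units_eq_one_or (Equiv.Perm.sign σ) with e | e <;> rw [e]
  · rw [one_smul]
    exact mul_le_mul_of_nonneg_right e4.2 e3
  · rw [Units.neg_smul, one_smul, ← neg_mul]
    exact mul_le_mul_of_nonneg_right (by linarith [e4.1]) e3

theorem stab (N : ℕ) {η : ℝ} (h0 : 0 < η) (h1 : η * N ≤ 1 / 2) : ∃ δ : ℝ, 0 < δ ∧ δ < 1 ∧
    ∀ P : Matrix (Fin N) (Fin N) ℝ, (∀ i k, 0 ≤ P i k) → (∀ k, ∑ i, P i k = 1) → 1 - δ ≤ P.det →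
      ∀ w, P *ᵥ w ∈ Oe N η → w ∈ O N := by
  have hη : 0 < 1 + η := by linarith
  refine ⟨η / (1 + η), div_pos h0 hη, (div_lt_one hη).2 (by linarith), fun P p0 p1 hd w hw k => ?_⟩
  set δ := η / (1 + η) with hδ
  have e0 : η * (1 - δ) = δ := by
    rw [hδ]
    field_simp
    ring
  have e1 : δ < 1 := (div_lt_one hη).2 (by linarith)
  set x := P *ᵥ w with hx
  set S := ∑ j, x j with hS
  have hw' : ∀ i, η * S ≤ x i := hw
  have s0 : 0 ≤ S := by
    have := Finset.sum_le_sum fun i (_ : i ∈ Finset.univ) => hw' i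
    rw [Finset.sum_const, Finset.card_univ, Fintype.card_fin, nsmul_eq_mul, ← hS] at this
    by_contra hn
    nlinarith
  have x0 : ∀ i, 0 ≤ x i := fun i => (mul_nonneg h0.le s0).trans (hw' i)
  have x1 : ∀ i, x i ≤ S := fun i => Finset.single_le_sum (fun j _ => x0 j) (Finset.mem_univ i)
  obtain ⟨i, hi⟩ : ∃ i, 1 - δ ≤ P.adjugate k i := by
    obtain ⟨i, -, hi⟩ := Finset.exists_max_image Finset.univ (P.adjugate k) ⟨k, Finset.mem_univ k⟩
    refine ⟨i, hd.trans ?_⟩
    have h2 : P.det = ∑ j, P.adjugate k j * P j k := by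
      rw [← mul_apply, adjugate_mul]
      simp
    rw [h2, ← mul_one (P.adjugate k i), ← p1 k, Finset.mul_sum]
    exact Finset.sum_le_sum fun j _ => mul_le_mul_of_nonneg_right (hi j (Finset.mem_univ j)) (p0 j k)
  have h3 := stab_key P p0 p1 k (Pi.single i (S + x i) - x) S fun j => by
    rw [Pi.sub_apply, Pi.single_apply]
    split_ifs with hj
    · rw [hj, add_sub_cancel_right, abs_of_nonneg s0]
    · rw [zero_sub, abs_neg, abs_of_nonneg (x0 j)]
      exact x1 j
  rw [← cramer_apply, cramer_eq_adjugate_mulVec, mulVec_sub, hx, mulVec_mulVec, adjugate_mul,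
    ← hx] at h3
  have h4 : P.adjugate k i * (S + x i) - P.det * w k ≤ S := by
    simpa [smul_mulVec] using h3
  have h5 : (1 - δ) * (S + η * S) ≤ P.adjugate k i * (S + x i) :=
    mul_le_mul hi (by linarith [hw' i]) (by positivity) (by linarith)
  have h6 : (1 - δ) * (S + η * S) = S := by linear_combination S * e0
  exact nonneg_of_mul_nonneg_right (a := P.det) (by linarith) (by linarith)

end Vale.Agent.P254L
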