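import Vale.Agent.P254L.Core
import Vale.Agent.P254L.Stab
import Vale.Agent.P254L.MaxD
import Vale.Agent.P254L.Lin
import Vale.Agent.P254L.ConeB
import Vale.Agent.P254L.Geo

/-! Assembly. -/

open MeasureTheory Set Matrix Real Filter Topology

noncomputable section

namespace Vale.Agent.P254L

theorem main_img {N : ℕ} (A B : Matrix (Fin N) (Fin N) ℝ) (V : Set (R N)) :
    (fun x => A *ᵥ x) '' ((fun x => B *ᵥ x) '' V) = (fun x => (A * B) *ᵥ x) '' V := by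
  rw [image_image]
  simp only [mulVec_mulVec]

theorem main_one {N : ℕ} (V : Set (R N)) :
    (fun x => (1 : Matrix (Fin N) (Fin N) ℝ) *ᵥ x) '' V = V := by
  simp

theorem main_eps (N : ℕ) {δ : ℝ} (h : 0 < δ) :
    ∃ ε : ℝ, 0 < ε ∧ 1 - δ ≤ (1 + N * ε) / (1 + N * ε) ^ N := by
  have c : ContinuousAt (fun ε : ℝ => (1 + N * ε) / (1 + N * ε) ^ N) 0 :=
    ContinuousAt.div (by fun_prop) (by fun_prop) (by simp)
  have e : ∀ᶠ ε : ℝ in 𝓝 0, 1 - δ < (1 + N * ε) / (1 + N * ε) ^ N :=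
    continuousAt_const.eventually_lt c (by simpa using h)
  obtain ⟨ε, h1, h2⟩ := ((e.filter_mono nhdsWithin_le_nhds).and
    (self_mem_nhdsWithin (s := Ioi (0 : ℝ)))).exists
  exact ⟨ε, h2, h1.le⟩

/-- The local theorem for cones. -/
theorem cones (n : ℕ) : ∃ ε : ℝ, 0 < ε ∧ ∀ (W : Set (R (n + 1))) (y : R (n + 1))
    (A : Matrix (Fin (n + 1)) (Fin (n + 1)) ℝ), Cn W → A.det ≠ 0 → y ᵥ* A = 1 →
    (fun x => A *ᵥ x) '' O (n + 1) ⊆ W → W ⊆ (fun x => A *ᵥ x) '' Oe (n + 1) (-ε) → 0 < zz W y →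
    iv W y ≤ iv (O (n + 1)) 1 ∧ (iv W y = iv (O (n + 1)) 1 →
      ∃ Q : Matrix (Fin (n + 1)) (Fin (n + 1)) ℝ, Q.det ≠ 0 ∧ y ᵥ* Q = 1 ∧
        W = (fun x => Q *ᵥ x) '' O (n + 1)) := by
  obtain ⟨η, h0, h1, hc⟩ := core n
  obtain ⟨δ, d0, d1, hs⟩ := stab (n + 1) h0 (by push_cast; exact h1)
  obtain ⟨ε, e0, e1⟩ := main_eps (n + 1) d0
  refine ⟨ε, e0, fun W y A hW hA hy hi ho hZ => ?_⟩
  have uA : IsUnit A.det := isUnit_iff_ne_zero.2 hA
  have iA : A⁻¹.det ≠ 0 := (isUnit_nonsing_inv_det A uA).ne_zero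
  have hV : Cn ((fun x => A⁻¹ *ᵥ x) '' W) := hW.map iA
  have v1 : O (n + 1) ⊆ (fun x => A⁻¹ *ᵥ x) '' W := by
    have := image_mono (f := fun x => A⁻¹ *ᵥ x) hi
    rwa [main_img, nonsing_inv_mul A uA, main_one] at this
  have v2 : (fun x => A⁻¹ *ᵥ x) '' W ⊆ Oe (n + 1) (-ε) := by
    have := image_mono (f := fun x => A⁻¹ *ᵥ x) ho
    rwa [main_img, nonsing_inv_mul A uA, main_one] at this
  obtain ⟨P, p0, p1, p2, p3, p4⟩ := exists_max hV e0 v1 v2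
  have p5 : 1 - δ ≤ P.det := e1.trans p2
  have hP : P.det ≠ 0 := by
    intro h
    linarith
  have uP : IsUnit P.det := isUnit_iff_ne_zero.2 hP
  have hU := hV.map hP
  set U := (fun x => P *ᵥ x) '' ((fun x => A⁻¹ *ᵥ x) '' W) with hUd
  have u1 : U ⊆ O (n + 1) := by
    rintro _ ⟨x, hx, rfl⟩
    exact p3 x hx
  have u2 : Oe (n + 1) η ⊆ U := fun x hx => by
    have e : P *ᵥ (P⁻¹ *ᵥ x) = x := by rw [mulVec_mulVec, mul_nonsing_inv P uP, one_mulVec]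
    exact ⟨P⁻¹ *ᵥ x, v1 (hs P p0 p1 p5 _ (by rwa [e])), e⟩
  have q0 : (A * P⁻¹).det ≠ 0 := by
    rw [det_mul]
    exact mul_ne_zero hA (isUnit_nonsing_inv_det P uP).ne_zero
  have q1 : y ᵥ* (A * P⁻¹) = 1 := by
    have e : (1 : R (n + 1)) ᵥ* P = 1 := by
      funext k
      simpa [vecMul, dotProduct] using p1 k
    rw [← vecMul_vecMul, hy]
    calc (1 : R (n + 1)) ᵥ* P⁻¹ = (1 ᵥ* P) ᵥ* P⁻¹ := by rw [e]
      _ = 1 := by rw [vecMul_vecMul, mul_nonsing_inv P uP, vecMul_one]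
  have q2 : W = (fun x => (A * P⁻¹) *ᵥ x) '' U := by
    rw [hUd, main_img, main_img, Matrix.mul_assoc A, nonsing_inv_mul P uP, Matrix.mul_one,
      mul_nonsing_inv A uA, main_one]
  have mU := hU.cl.measurableSet
  have z1 : 0 < zz U 1 := by
    rw [q2, zz_lin mU q0 q1] at hZ
    exact (mul_pos_iff_of_pos_left (abs_pos.2 q0)).1 hZ
  obtain ⟨c1, c2⟩ := hc U hU u2 u1 p4 z1
  have e : iv W y = iv U 1 := by rw [q2, iv_lin mU u1 q0 q1]
  rw [e]
  exact ⟨c1, fun h => ⟨_, q0, q1, by rw [q2, c2 h]⟩⟩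

open Vale.Agent.P254 in
theorem local_max (n : ℕ) (hn : 1 ≤ n) : ∃ ε : ℝ, 0 < ε ∧
    ∀ (v : Fin (n + 1) → EuclideanSpace ℝ (Fin n)) (K : Set (EuclideanSpace ℝ (Fin n))),
      AffineIndependent ℝ v → IsCompact K → Convex ℝ K → convexHull ℝ (range v) ⊆ K →
      K ⊆ AffineMap.homothety (Finset.univ.centroid ℝ v) (1 + ε) '' convexHull ℝ (range v) →
      isoConst K ≤ isoConst (convexHull ℝ (range v)) ∧
        (isoConst K = isoConst (convexHull ℝ (range v)) →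
          ∃ w : Fin (n + 1) → EuclideanSpace ℝ (Fin n), AffineIndependent ℝ w ∧
            K = convexHull ℝ (range w)) := by
  obtain ⟨ε, e0, h⟩ := cones n
  refine ⟨ε, e0, fun v K hv hK hc hi ho => ?_⟩
  have hS : IsCompact (convexHull ℝ (range v)) := (finite_range v).isCompact_convexHull ℝ
  have k0 := vol_pos hv hK hi
  have s0 := vol_pos hv hS Subset.rfl
  have hsub : cone (convexHull ℝ (range v)) ⊆ cone K := by
    rintro _ ⟨s, hs, x, hx, rfl⟩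
    exact ⟨s, hs, x, hi hx, rfl⟩
  obtain ⟨a1, a2⟩ := h (cone K) (Pi.single 0 1) (mt v) (cn_cone hK hc) (mt_det hv) (mt_row v)
    (by rw [← cone_hull]; exact hsub) (cone_dil e0 ho) (by rw [zz_cone hK]; positivity)
  have e : iv (O (n + 1)) 1 = iv (cone (convexHull ℝ (range v))) (Pi.single 0 1) := by
    rw [cone_hull, iv_lin (isClosed_O _).measurableSet Subset.rfl (mt_det hv) (mt_row v)]
  rw [e, iv_cone hK k0, iv_cone hS s0] at a1 a2
  have c0 : (0 : ℝ) < ((n + 2).factorial : ℝ) ^ (n + 1) / (n.factorial : ℝ) ^ (n + 3) := by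
    positivity
  have n0 : (0 : ℝ) < 1 / (2 * (n : ℝ)) := by
    have : (0 : ℝ) < n := by exact_mod_cast hn
    positivity
  have b1 : 0 ≤ (covMatrix K).det / volume.real K ^ 2 :=
    div_nonneg (det_cov_nonneg hK) (sq_nonneg _)
  have b2 : 0 ≤ (covMatrix (convexHull ℝ (range v))).det / volume.real (convexHull ℝ (range v)) ^ 2 :=
    div_nonneg (det_cov_nonneg hS) (sq_nonneg _)
  unfold isoConst
  refine ⟨rpow_le_rpow b1 (le_of_mul_le_mul_left a1 c0) n0.le, fun he => ?_⟩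
  obtain ⟨Q, q0, q1, q2⟩ := a2 (by rw [(rpow_left_inj b1 b2 n0.ne').1 he])
  exact eq_hull q0 q1 q2

end Vale.Agent.P254L
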